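import Vale.Agent.P331.H726.Lab

/-!
# Berge type inequalities for independent exclusive labels
-/

namespace Vale.Agent.P331.H726

open scoped ENNReal
open Finset

universe u

section

variable {Λ : Type u} [Fintype Λ]

/-- `lam ^ d` where `d` is the least number of elements of `V` which one has to add to `C` to get
into the family `A`. -/
noncomputable def dT (lam : ℝ≥0∞) {n : ℕ} (A : St n → Prop) (V C : St n) : ℝ≥0∞ :=
  ⨅ (Y : St n) (_ : Y ≤ V) (_ : A (C ⊔ Y)), lam ^ crd Y

/-- `lam ^ d` where `d` is the least number of elements which one has to remove from `V` to get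
into the family `A`. -/
noncomputable def rT (lam : ℝ≥0∞) {n : ℕ} (A : St n → Prop) (V : St n) : ℝ≥0∞ :=
  ⨅ (D : St n) (_ : D ≤ V) (_ : A (V \ D)), lam ^ crd D

theorem dT_le {lam : ℝ≥0∞} {n : ℕ} {A : St n → Prop} {V C Y : St n} (h : Y ≤ V) (h' : A (C ⊔ Y)) :
    dT lam A V C ≤ lam ^ crd Y := iInf_le_of_le Y (iInf_le_of_le h (iInf_le_of_le h' le_rfl))

theorem rT_le {lam : ℝ≥0∞} {n : ℕ} {A : St n → Prop} {V D : St n} (h : D ≤ V) (h' : A (V \ D)) :
    rT lam A V ≤ lam ^ crd D := iInf_le_of_le D (iInf_le_of_le h (iInf_le_of_le h' le_rfl))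

theorem crd_zero (Y : St 0) : crd Y = 0 := by simp [crd]

theorem le_mul_dT {lam : ℝ≥0∞} (h0 : lam ≠ 0) (h1 : lam ≠ ∞) {n : ℕ} {A : St n → Prop}
    {V C : St n} {X : ℝ≥0∞} (h : ∀ Y ≤ V, A (C ⊔ Y) → X ≤ lam * lam ^ crd Y) :
    X ≤ lam * dT lam A V C := by
  rw [dT, ENNReal.mul_iInf_of_ne h0 h1]
  refine le_iInf fun Y => ?_
  rw [ENNReal.mul_iInf_of_ne h0 h1]
  refine le_iInf fun hY => ?_
  rw [ENNReal.mul_iInf_of_ne h0 h1]
  exact le_iInf fun hA => h Y hY hA

theorem le_mul_rT {lam : ℝ≥0∞} (h0 : lam ≠ 0) (h1 : lam ≠ ∞) {n : ℕ} {A : St n → Prop}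
    {V : St n} {X : ℝ≥0∞} (h : ∀ D ≤ V, A (V \ D) → X ≤ lam * lam ^ crd D) :
    X ≤ lam * rT lam A V := by
  rw [rT, ENNReal.mul_iInf_of_ne h0 h1]
  refine le_iInf fun Y => ?_
  rw [ENNReal.mul_iInf_of_ne h0 h1]
  refine le_iInf fun hY => ?_
  rw [ENNReal.mul_iInf_of_ne h0 h1]
  exact le_iInf fun hA => h Y hY hA

theorem dT_cons_le (lam : ℝ≥0∞) {n : ℕ} (A : St (n + 1) → Prop) (V C : St n) (v c : Bool) :
    dT lam A (Fin.cons v V) (Fin.cons c C) ≤ dT lam (fun X => A (Fin.cons c X)) V C := by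
  refine le_iInf fun Y => le_iInf fun hY => le_iInf fun hA => ?_
  refine (dT_le (Y := Fin.cons false Y) (cons_le_cons (Bool.false_le _) hY) ?_).trans
    (le_of_eq ?_)
  · rw [cons_sup, show (c ⊔ false : Bool) = c from sup_bot_eq _]
    exact hA
  · rw [crd_cons, Bool.toNat_false, zero_add]

theorem dT_cons_le' {lam : ℝ≥0∞} (h0 : lam ≠ 0) (h1 : lam ≠ ∞) {n : ℕ} (A : St (n + 1) → Prop)
    (V C : St n) (c : Bool) : dT lam A (Fin.cons true V) (Fin.cons c C) ≤
      lam * dT lam (fun X => A (Fin.cons true X)) V C := by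
  refine le_mul_dT h0 h1 fun Y hY hA => ?_
  refine (dT_le (Y := Fin.cons true Y) (cons_le_cons le_rfl hY) ?_).trans (le_of_eq ?_)
  · rw [cons_sup, show (c ⊔ true : Bool) = true from sup_top_eq _]
    exact hA
  · rw [crd_cons, Bool.toNat_true, pow_add, pow_one]

theorem rT_cons_le (lam : ℝ≥0∞) {n : ℕ} (A : St (n + 1) → Prop) (V : St n) (v : Bool) :
    rT lam A (Fin.cons v V) ≤ rT lam (fun X => A (Fin.cons v X)) V := by
  refine le_iInf fun Y => le_iInf fun hY => le_iInf fun hA => ?_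
  refine (rT_le (D := Fin.cons false Y) (cons_le_cons (Bool.false_le _) hY) ?_).trans
    (le_of_eq ?_)
  · rw [cons_sdiff, show (v \ false : Bool) = v from sdiff_bot]
    exact hA
  · rw [crd_cons, Bool.toNat_false, zero_add]

theorem rT_cons_le' {lam : ℝ≥0∞} (h0 : lam ≠ 0) (h1 : lam ≠ ∞) {n : ℕ} (A : St (n + 1) → Prop)
    (V : St n) : rT lam A (Fin.cons true V) ≤
      lam * rT lam (fun X => A (Fin.cons false X)) V := by
  refine le_mul_rT h0 h1 fun Y hY hA => ?_
  refine (rT_le (D := Fin.cons true Y) (cons_le_cons le_rfl hY) ?_).trans (le_of_eq ?_)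
  · rw [cons_sdiff, show (true \ true : Bool) = false from sdiff_self]
    exact hA
  · rw [crd_cons, Bool.toNat_true, pow_add, pow_one]

/-- **(T1)** -/
theorem berge {lam : ℝ≥0∞} (h0 : lam ≠ 0) (h1 : lam ≠ ∞) : ∀ {n : ℕ}
    {w : Fin n → Lb Λ → ℝ≥0∞} (_ : ∀ i, lam * w i (Sum.inl 0) ≤ w i (Sum.inl 1))
    (g : (Fin n → Option Λ) → ℝ≥0∞)
    (A : (Fin n → Option Λ) → St n → Prop) (_ : ∀ U X Y, X ≤ Y → A U X → A U Y),
    Ex w (fun ω => g (iS ω) * ⨆ _ : A (iS ω) (vS ω), dT lam (A (iS ω)) (vS ω) (cS ω)) ≤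
      Ex w (fun ω => g (iS ω)) := by
  intro n
  induction n with
  | zero =>
    intro w _ g A hA
    rw [Ex_zero, Ex_zero]
    refine mul_le_of_le_one_right' ?_
    refine iSup_le fun h => (dT_le le_rfl ?_).trans (le_of_eq ?_)
    · exact cast (congrArg _ (funext fun i => i.elim0)) h
    · rw [crd_zero, pow_zero]
  | succ n ih =>
    intro w hl g A hA
    have ih' := fun (u : Option Λ) (b : Bool) => ih (w := fun i => w i.succ)
      (fun i => hl i.succ) (fun U => g (Fin.cons u U)) (fun U X => A (Fin.cons u U) (Fin.cons b X))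
      (fun U X Y h hX => hA _ _ _ (cons_le_cons le_rfl h) hX)
    let Q : Option Λ → Bool → (Fin n → Lb Λ) → ℝ≥0∞ := fun u b ω =>
      g (Fin.cons u (iS ω)) * ⨆ _ : A (Fin.cons u (iS ω)) (Fin.cons b (vS ω)),
        dT lam (fun X => A (Fin.cons u (iS ω)) (Fin.cons b X)) (vS ω) (cS ω)
    have hQ : ∀ u b, Ex (fun i : Fin n => w i.succ) (Q u b) ≤
      Ex (fun i : Fin n => w i.succ) (fun ω => g (Fin.cons u (iS ω))) := ih'
    -- the four kinds of labels
    have t3 : ∀ (a : Lb Λ) (_ : isV a = false) (_ : isC a = false) (ω : Fin n → Lb Λ),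
        g (iS (Fin.cons a ω : Fin (n + 1) → Lb Λ)) *
        (⨆ _ : A (iS (Fin.cons a ω : Fin (n + 1) → Lb Λ)) (vS (Fin.cons a ω : Fin (n + 1) → Lb Λ)),
        dT lam (A (iS (Fin.cons a ω : Fin (n + 1) → Lb Λ)))
          (vS (Fin.cons a ω : Fin (n + 1) → Lb Λ))
          (cS (Fin.cons a ω : Fin (n + 1) → Lb Λ))) ≤ Q (inert a) false ω := by
      intro a hv hc ω
      rw [vS_cons, cS_cons, iS_cons, hv, hc]
      exact mul_le_mul_right (iSup_mono fun _ => dT_cons_le _ _ _ _ _ _) _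
    have t01 : ∀ ω : Fin n → Lb Λ, w 0 (Sum.inl 0) *
        (g (iS (Fin.cons (Sum.inl 0) ω : Fin (n + 1) → Lb Λ)) *
        (⨆ _ : A (iS (Fin.cons (Sum.inl 0) ω : Fin (n + 1) → Lb Λ))
          (vS (Fin.cons (Sum.inl 0) ω : Fin (n + 1) → Lb Λ)),
        dT lam (A (iS (Fin.cons (Sum.inl 0) ω : Fin (n + 1) → Lb Λ)))
          (vS (Fin.cons (Sum.inl 0) ω : Fin (n + 1) → Lb Λ))
          (cS (Fin.cons (Sum.inl 0) ω : Fin (n + 1) → Lb Λ)))) +
        w 0 (Sum.inl 1) *
        (g (iS (Fin.cons (Sum.inl 1) ω : Fin (n + 1) → Lb Λ)) *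
        (⨆ _ : A (iS (Fin.cons (Sum.inl 1) ω : Fin (n + 1) → Lb Λ))
          (vS (Fin.cons (Sum.inl 1) ω : Fin (n + 1) → Lb Λ)),
        dT lam (A (iS (Fin.cons (Sum.inl 1) ω : Fin (n + 1) → Lb Λ)))
          (vS (Fin.cons (Sum.inl 1) ω : Fin (n + 1) → Lb Λ))
          (cS (Fin.cons (Sum.inl 1) ω : Fin (n + 1) → Lb Λ)))) ≤
        w 0 (Sum.inl 0) * Q none false ω + w 0 (Sum.inl 1) * Q none true ω := by
      intro ω
      rw [vS_cons, cS_cons, iS_cons, vS_cons, cS_cons, iS_cons]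
      change w 0 (Sum.inl 0) *
        (g (Fin.cons none (iS ω)) * ⨆ _ : A (Fin.cons none (iS ω)) (Fin.cons true (vS ω)),
          dT lam (A (Fin.cons none (iS ω))) (Fin.cons true (vS ω)) (Fin.cons false (cS ω))) +
        w 0 (Sum.inl 1) * (g (Fin.cons none (iS ω)) *
          ⨆ _ : A (Fin.cons none (iS ω)) (Fin.cons false (vS ω)),
          dT lam (A (Fin.cons none (iS ω))) (Fin.cons false (vS ω)) (Fin.cons true (cS ω))) ≤ _
      by_cases hA0 : A (Fin.cons none (iS ω)) (Fin.cons false (vS ω))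
      · have hA1 : A (Fin.cons none (iS ω)) (Fin.cons true (vS ω)) :=
          hA _ _ _ (cons_le_cons (by decide) le_rfl) hA0
        simp only [Q, iSup_pos hA0, iSup_pos hA1]
        gcongr
        · exact dT_cons_le _ _ _ _ _ _
        · exact dT_cons_le _ _ _ _ _ _
      · by_cases hA1 : A (Fin.cons none (iS ω)) (Fin.cons true (vS ω))
        · simp only [Q, iSup_pos hA1, iSup_neg hA0, bot_eq_zero', mul_zero, add_zero, zero_add]
          calc _ ≤ w 0 (Sum.inl 0) * (g (Fin.cons none (iS ω)) *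
                (lam * dT lam (fun X => A (Fin.cons none (iS ω))
                (Fin.cons true X)) (vS ω) (cS ω))) := by
                gcongr
                exact dT_cons_le' h0 h1 _ _ _ _
            _ = (lam * w 0 (Sum.inl 0)) * (g (Fin.cons none (iS ω)) *
                dT lam (fun X => A (Fin.cons none (iS ω))
                (Fin.cons true X)) (vS ω) (cS ω)) := by ring
            _ ≤ _ := by
                gcongr
                exact hl 0
        · simp only [Q, iSup_neg hA1, iSup_neg hA0, bot_eq_zero', mul_zero, add_zero]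
          exact le_rfl
    rw [Ex_cons, Ex_cons, sum_labels, sum_labels]
    calc _ ≤ (w 0 (Sum.inl 0) * Ex (fun i : Fin n => w i.succ) (Q none false) +
          w 0 (Sum.inl 1) * Ex (fun i : Fin n => w i.succ) (Q none true)) +
          w 0 (Sum.inl 2) * Ex (fun i : Fin n => w i.succ) (Q none false) +
          ∑ a : Λ, w 0 (Sum.inr a) * Ex (fun i : Fin n => w i.succ) (Q (some a) false) := by
          refine add_le_add (add_le_add ?_ ?_) ?_
          · rw [← Ex_mul, ← Ex_mul, ← Ex_mul, ← Ex_mul, ← Ex_add, ← Ex_add]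
            exact Ex_mono t01
          · gcongr
            exact Ex_mono fun ω => t3 (Sum.inl 2) rfl rfl ω
          · gcongr with a _
            exact Ex_mono fun ω => t3 (Sum.inr a) rfl rfl ω
      _ ≤ _ := by
          gcongr with a _
          · exact (hQ _ _).trans (le_of_eq (congrArg _ (funext fun ω => by rw [iS_cons]; rfl)))
          · exact (hQ _ _).trans (le_of_eq (congrArg _ (funext fun ω => by rw [iS_cons]; rfl)))
          · exact (hQ _ _).trans (le_of_eq (congrArg _ (funext fun ω => by rw [iS_cons]; rfl)))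
          · exact (hQ _ _).trans (le_of_eq (congrArg _ (funext fun ω => by rw [iS_cons]; rfl)))

/-- **(T2)** -/
theorem berge' {lam : ℝ≥0∞} (h0 : lam ≠ 0) (h1 : lam ≠ ∞) : ∀ {n : ℕ}
    {w : Fin n → Lb Λ → ℝ≥0∞} (_ : ∀ i, lam * w i (Sum.inl 0) ≤ w i (Sum.inl 1))
    (g : (Fin n → Option Λ) → ℝ≥0∞)
    (A : (Fin n → Option Λ) → St n → Prop) (_ : ∀ U X Y, X ≤ Y → A U Y → A U X),
    Ex w (fun ω => g (iS ω) * ⨆ _ : A (iS ω) (cS ω), rT lam (A (iS ω)) (vS ω)) ≤
      Ex w (fun ω => g (iS ω)) := by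
  intro n
  induction n with
  | zero =>
    intro w _ g A hA
    rw [Ex_zero, Ex_zero]
    refine mul_le_of_le_one_right' ?_
    refine iSup_le fun h => (rT_le le_rfl ?_).trans (le_of_eq ?_)
    · exact cast (congrArg _ (funext fun i => i.elim0)) h
    · rw [crd_zero, pow_zero]
  | succ n ih =>
    intro w hl g A hA
    have ih' := fun (u : Option Λ) (b : Bool) => ih (w := fun i => w i.succ)
      (fun i => hl i.succ) (fun U => g (Fin.cons u U)) (fun U X => A (Fin.cons u U) (Fin.cons b X))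
      (fun U X Y h hX => hA _ _ _ (cons_le_cons le_rfl h) hX)
    let Q : Option Λ → Bool → (Fin n → Lb Λ) → ℝ≥0∞ := fun u b ω =>
      g (Fin.cons u (iS ω)) * ⨆ _ : A (Fin.cons u (iS ω)) (Fin.cons b (cS ω)),
        rT lam (fun X => A (Fin.cons u (iS ω)) (Fin.cons b X)) (vS ω)
    have hQ : ∀ u b, Ex (fun i : Fin n => w i.succ) (Q u b) ≤
      Ex (fun i : Fin n => w i.succ) (fun ω => g (Fin.cons u (iS ω))) := ih'
    have t3 : ∀ (a : Lb Λ) (_ : isV a = false) (_ : isC a = false) (ω : Fin n → Lb Λ),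
        g (iS (Fin.cons a ω : Fin (n + 1) → Lb Λ)) *
        (⨆ _ : A (iS (Fin.cons a ω : Fin (n + 1) → Lb Λ)) (cS (Fin.cons a ω : Fin (n + 1) → Lb Λ)),
        rT lam (A (iS (Fin.cons a ω : Fin (n + 1) → Lb Λ)))
          (vS (Fin.cons a ω : Fin (n + 1) → Lb Λ))) ≤ Q (inert a) false ω := by
      intro a hv hc ω
      rw [vS_cons, cS_cons, iS_cons, hv, hc]
      exact mul_le_mul_right (iSup_mono fun _ => rT_cons_le _ _ _ _) _
    have t01 : ∀ ω : Fin n → Lb Λ, w 0 (Sum.inl 0) *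
        (g (iS (Fin.cons (Sum.inl 0) ω : Fin (n + 1) → Lb Λ)) *
        (⨆ _ : A (iS (Fin.cons (Sum.inl 0) ω : Fin (n + 1) → Lb Λ))
          (cS (Fin.cons (Sum.inl 0) ω : Fin (n + 1) → Lb Λ)),
        rT lam (A (iS (Fin.cons (Sum.inl 0) ω : Fin (n + 1) → Lb Λ)))
          (vS (Fin.cons (Sum.inl 0) ω : Fin (n + 1) → Lb Λ)))) +
        w 0 (Sum.inl 1) *
        (g (iS (Fin.cons (Sum.inl 1) ω : Fin (n + 1) → Lb Λ)) *
        (⨆ _ : A (iS (Fin.cons (Sum.inl 1) ω : Fin (n + 1) → Lb Λ))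
          (cS (Fin.cons (Sum.inl 1) ω : Fin (n + 1) → Lb Λ)),
        rT lam (A (iS (Fin.cons (Sum.inl 1) ω : Fin (n + 1) → Lb Λ)))
          (vS (Fin.cons (Sum.inl 1) ω : Fin (n + 1) → Lb Λ)))) ≤
        w 0 (Sum.inl 0) * Q none true ω + w 0 (Sum.inl 1) * Q none false ω := by
      intro ω
      rw [vS_cons, cS_cons, iS_cons, vS_cons, cS_cons, iS_cons]
      change w 0 (Sum.inl 0) *
        (g (Fin.cons none (iS ω)) * ⨆ _ : A (Fin.cons none (iS ω)) (Fin.cons false (cS ω)),
          rT lam (A (Fin.cons none (iS ω))) (Fin.cons true (vS ω))) +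
        w 0 (Sum.inl 1) * (g (Fin.cons none (iS ω)) *
          ⨆ _ : A (Fin.cons none (iS ω)) (Fin.cons true (cS ω)),
          rT lam (A (Fin.cons none (iS ω))) (Fin.cons false (vS ω))) ≤ _
      by_cases hA1 : A (Fin.cons none (iS ω)) (Fin.cons true (cS ω))
      · have hA0 : A (Fin.cons none (iS ω)) (Fin.cons false (cS ω)) :=
          hA _ _ _ (cons_le_cons (by decide) le_rfl) hA1
        simp only [Q, iSup_pos hA0, iSup_pos hA1]
        gcongr
        · exact rT_cons_le _ _ _ _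
        · exact rT_cons_le _ _ _ _
      · by_cases hA0 : A (Fin.cons none (iS ω)) (Fin.cons false (cS ω))
        · simp only [Q, iSup_pos hA0, iSup_neg hA1, bot_eq_zero', mul_zero, add_zero, zero_add]
          calc _ ≤ w 0 (Sum.inl 0) * (g (Fin.cons none (iS ω)) *
                (lam * rT lam (fun X => A (Fin.cons none (iS ω))
                (Fin.cons false X)) (vS ω))) := by
                gcongr
                exact rT_cons_le' h0 h1 _ _
            _ = (lam * w 0 (Sum.inl 0)) * (g (Fin.cons none (iS ω)) *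
                rT lam (fun X => A (Fin.cons none (iS ω)) (Fin.cons false X)) (vS ω)) := by ring
            _ ≤ _ := by
                gcongr
                exact hl 0
        · simp only [Q, iSup_neg hA1, iSup_neg hA0, bot_eq_zero', mul_zero, add_zero]
          exact le_rfl
    rw [Ex_cons, Ex_cons, sum_labels, sum_labels]
    calc _ ≤ (w 0 (Sum.inl 0) * Ex (fun i : Fin n => w i.succ) (Q none true) +
          w 0 (Sum.inl 1) * Ex (fun i : Fin n => w i.succ) (Q none false)) +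
          w 0 (Sum.inl 2) * Ex (fun i : Fin n => w i.succ) (Q none false) +
          ∑ a : Λ, w 0 (Sum.inr a) * Ex (fun i : Fin n => w i.succ) (Q (some a) false) := by
          refine add_le_add (add_le_add ?_ ?_) ?_
          · rw [← Ex_mul, ← Ex_mul, ← Ex_mul, ← Ex_mul, ← Ex_add, ← Ex_add]
            exact Ex_mono t01
          · gcongr
            exact Ex_mono fun ω => t3 (Sum.inl 2) rfl rfl ω
          · gcongr with a _
            exact Ex_mono fun ω => t3 (Sum.inr a) rfl rfl ω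
      _ ≤ _ := by
          gcongr with a _
          · exact (hQ _ _).trans (le_of_eq (congrArg _ (funext fun ω => by rw [iS_cons]; rfl)))
          · exact (hQ _ _).trans (le_of_eq (congrArg _ (funext fun ω => by rw [iS_cons]; rfl)))
          · exact (hQ _ _).trans (le_of_eq (congrArg _ (funext fun ω => by rw [iS_cons]; rfl)))
          · exact (hQ _ _).trans (le_of_eq (congrArg _ (funext fun ω => by rw [iS_cons]; rfl)))

end

end Vale.Agent.P331.H726
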