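import Vale.Agent.P331.H726.Exc

/-!
# Disjoint robust deletion sets
-/

namespace Vale.Agent.P331.H726

open scoped ENNReal
open Finset

universe u v

section Defs

variable {n : ℕ} {W : Type v} [Fintype W]

/-- The probability (under `P`) that `K` is not in the random family. -/
noncomputable def miss (P : W → ℝ≥0∞) (A : W → St n → Prop) (K : St n) : ℝ≥0∞ :=
  ∑ w, P w * ind (¬ A w K)

theorem miss_anti {P : W → ℝ≥0∞} {A : W → St n → Prop} (hA : ∀ w X Y, X ≤ Y → A w X → A w Y)
    {K K' : St n} (h : K ≤ K') : miss P A K' ≤ miss P A K :=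
  Finset.sum_le_sum fun w _ => mul_le_mul_right (ind_mono fun h' h'' => h' (hA w _ _ h h'')) _

theorem miss_le (P : W → ℝ≥0∞) (A : W → St n → Prop) (K : St n) : miss P A K ≤ ∑ w, P w :=
  Finset.sum_le_sum fun w _ => by
    rw [← mul_one (P w), mul_assoc, one_mul]
    exact mul_le_mul_right (ind_le_one _) _

/-- Some subset of `V` which is missed with probability at most `a` has `M` disjoint subsets
the removal of each of which makes the probability at least `b`, even with the help of `C`. -/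
def Ess (P : W → ℝ≥0∞) (A : W → St n → Prop) (V C : St n) (a b : ℝ≥0∞) (M : ℕ) : Prop :=
  ∃ K ≤ V, miss P A K ≤ a ∧ ∃ D : Fin M → St n, (∀ i, D i ≤ K) ∧
    (Pairwise fun i k => Disjoint (D i) (D k)) ∧ ∀ i, b ≤ miss P A (C ⊔ (K \ D i))

/-- `lam ^ m` where `m` is the greatest number of disjoint blockers. -/
noncomputable def blk (lam : ℝ≥0∞) (A : St n → Prop) (K B : St n) : ℝ≥0∞ :=
  ⨆ (_ : A K) (m : ℕ) (D : Fin m → St n) (_ : (∀ i, D i ≤ K ∧ ¬ A (B \ D i)) ∧
    Pairwise fun i k => Disjoint (D i) (D k)), lam ^ m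

theorem disjoint_iff_bool {D D' : St n} : Disjoint D D' ↔ ∀ i, D i = false ∨ D' i = false := by
  rw [disjoint_iff]
  constructor
  · intro h i
    have h1 := congrFun h i
    change (D i && D' i) = false at h1
    exact Bool.and_eq_false_iff.1 h1
  · intro h
    funext i
    change (D i && D' i) = false
    exact Bool.and_eq_false_iff.2 (h i)

theorem le_crd_of_disjoint {m : ℕ} {D : Fin m → St n} {Y : St n}
    (hD : Pairwise fun i k => Disjoint (D i) (D k)) (h : ∀ i, ∃ x, D i x = true ∧ Y x = true) :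
    m ≤ crd Y := by
  choose x hx hY using h
  have hinj : Function.Injective x := by
    intro i k hik
    by_contra hne
    rcases (disjoint_iff_bool.1 (hD hne)) (x i) with h1 | h1
    · rw [hx] at h1
      exact absurd h1 (by decide)
    · rw [hik, hx] at h1
      exact absurd h1 (by decide)
  have hcard : crd Y = (Finset.univ.filter fun i => Y i = true).card := by
    rw [crd, Finset.card_filter]
    refine Finset.sum_congr rfl fun i _ => ?_
    cases Y i <;> rfl
  rw [hcard, ← Fintype.card_fin m]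
  exact Finset.card_le_card_of_injOn x (fun i _ => by simpa using hY i) hinj.injOn

end Defs

section Main

variable {Λ : Type u} {n : ℕ}

theorem vS_disjoint_cS (ω : Fin n → Lb Λ) : Disjoint (vS ω) (cS ω) := by
  rw [disjoint_iff_bool]
  intro i
  change isV (ω i) = false ∨ isC (ω i) = false
  rcases ω i with j | a
  · fin_cases j
    · exact Or.inr rfl
    · exact Or.inl rfl
    · exact Or.inl rfl
  · exact Or.inl rfl

theorem blk_le {lam : ℝ≥0∞} (h1 : 1 ≤ lam) {A : St n → Prop}
    (hA : ∀ X Y, X ≤ Y → A X → A Y) {V C : St n} (hVC : Disjoint V C) :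
    blk lam A V (V ⊔ C) ≤ ⨆ _ : A V, dT lam A V C := by
  refine iSup_mono fun hV => iSup_le fun m => iSup_le fun D => iSup_le fun hD => ?_
  refine le_iInf fun Y => le_iInf fun hY => le_iInf fun hYA => ?_
  refine pow_le_pow_right₀ h1 (le_crd_of_disjoint hD.2 fun i => ?_)
  by_contra hne
  push Not at hne
  refine (hD.1 i).2 (hA _ _ ?_ hYA)
  have hCD : Disjoint C (D i) := hVC.symm.mono_right (hD.1 i).1
  have hYD : Disjoint Y (D i) := by
    rw [disjoint_iff_bool]
    intro x
    by_cases h : D i x = true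
    · exact Or.inl (by simpa using hne x h)
    · exact Or.inr (by simpa using h)
  refine sup_le ?_ ?_
  · exact le_sdiff.2 ⟨le_sup_right, hCD⟩
  · exact le_sdiff.2 ⟨hY.trans le_sup_left, hYD⟩

theorem blk_mono {lam : ℝ≥0∞} {A : St n → Prop} (hA : ∀ X Y, X ≤ Y → A X → A Y)
    {K K' B B' : St n} (hK : K ≤ K') (hB : B' ≤ B) : blk lam A K B ≤ blk lam A K' B' := by
  refine iSup_le fun hV => iSup_le fun m => iSup_le fun D => iSup_le fun hD => ?_
  refine le_iSup_of_le (hA _ _ hK hV) (le_iSup_of_le m (le_iSup_of_le D (le_iSup_of_le ?_ le_rfl)))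
  refine ⟨fun i => ⟨(hD.1 i).1.trans hK, fun h => (hD.1 i).2 (hA _ _ ?_ h)⟩, hD.2⟩
  exact sdiff_le_sdiff hB le_rfl

/-- The essential event makes the mean of `blk` large. -/
theorem le_sum_blk {W : Type v} [Fintype W] {P : W → ℝ≥0∞} (hP : ∑ w, P w ≤ 1)
    {A : W → St n → Prop} (hA : ∀ w X Y, X ≤ Y → A w X → A w Y)
    {lam : ℝ≥0∞} (h1 : 1 ≤ lam) {C K : St n}
    {a δ : ℝ≥0∞} {M s : ℕ} (hM : 0 < M) (hs : 2 * (s : ℝ≥0∞) ≤ M * δ)
    (ha : miss P A K ≤ a) {D : Fin M → St n} (hD : ∀ i, D i ≤ K)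
    (hdis : Pairwise fun i k => Disjoint (D i) (D k))
    (hb : ∀ i, a + δ ≤ miss P A (C ⊔ (K \ D i))) :
    δ / 2 * lam ^ s ≤ ∑ w, P w * blk lam (A w) K (K ⊔ C) := by
  have hfin : miss P A K ≠ ∞ := ne_top_of_le_ne_top ENNReal.one_ne_top ((miss_le P A K).trans hP)
  -- the single sets
  have hone : ∀ i, δ ≤ ∑ w, P w * ind (A w K ∧ ¬ A w (C ⊔ (K \ D i))) := by
    intro i
    have h : miss P A K + δ ≤ miss P A K + ∑ w, P w * ind (A w K ∧ ¬ A w (C ⊔ (K \ D i))) := by
      calc miss P A K + δ ≤ a + δ := by gcongr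
        _ ≤ miss P A (C ⊔ (K \ D i)) := hb i
        _ ≤ _ := by
          rw [miss, miss, ← Finset.sum_add_distrib]
          refine Finset.sum_le_sum fun w _ => ?_
          rw [← mul_add]
          refine mul_le_mul_right ?_ _
          by_cases hw : A w (C ⊔ (K \ D i))
          · rw [ind_neg (not_not.2 hw)]
            exact zero_le
          · rw [ind_pos hw]
            by_cases hw' : A w K
            · rw [ind_pos (p := A w K ∧ _) ⟨hw', hw⟩]
              exact le_add_self
            · rw [ind_pos (p := ¬ A w K) hw']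
              exact le_self_add
    exact (ENNReal.add_le_add_iff_left hfin).1 h
  have hδ : δ ≠ ∞ := by
    refine ne_top_of_le_ne_top ENNReal.one_ne_top ((hone ⟨0, hM⟩).trans (le_trans ?_ hP))
    exact Finset.sum_le_sum fun w _ => by
      rw [← mul_one (P w), mul_assoc, one_mul]
      exact mul_le_mul_right (ind_le_one _) _
  -- the numbers
  classical
  let N : W → ℕ := fun w => (Finset.univ.filter fun i : Fin M =>
    A w K ∧ ¬ A w (C ⊔ (K \ D i))).card
  have hN : ∀ w, (N w : ℝ≥0∞) = ∑ i : Fin M, ind (A w K ∧ ¬ A w (C ⊔ (K \ D i))) := by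
    intro w
    change (((Finset.univ.filter fun i : Fin M => A w K ∧ ¬ A w (C ⊔ (K \ D i))).card : ℕ) :
      ℝ≥0∞) = _
    rw [Finset.card_filter, Nat.cast_sum]
    refine Finset.sum_congr rfl fun i _ => ?_
    by_cases h : A w K ∧ ¬ A w (C ⊔ (K \ D i))
    · rw [if_pos h, ind_pos h, Nat.cast_one]
    · rw [if_neg h, ind_neg h, Nat.cast_zero]
  have hsum : M * δ ≤ ∑ w, P w * N w := by
    calc (M : ℝ≥0∞) * δ = ∑ _i : Fin M, δ := by
          rw [Finset.sum_const, Finset.card_univ, Fintype.card_fin, nsmul_eq_mul]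
      _ ≤ ∑ i : Fin M, ∑ w, P w * ind (A w K ∧ ¬ A w (C ⊔ (K \ D i))) :=
          Finset.sum_le_sum fun i _ => hone i
      _ = _ := by
          rw [Finset.sum_comm]
          refine Finset.sum_congr rfl fun w _ => ?_
          rw [hN, Finset.mul_sum]
  have hNle : ∀ w, (N w : ℝ≥0∞) ≤ s + M * ind (s < N w) := by
    intro w
    by_cases h : s < N w
    · rw [ind_pos h, mul_one]
      refine le_add_left ?_
      have : N w ≤ M := by
        refine (Finset.card_le_univ _).trans ?_
        rw [Fintype.card_fin]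
      exact_mod_cast this
    · rw [ind_neg h, mul_zero, add_zero]
      exact_mod_cast not_lt.1 h
  have hQ : δ / 2 ≤ ∑ w, P w * ind (s < N w) := by
    have h2 : M * δ ≤ s + M * ∑ w, P w * ind (s < N w) := by
      refine hsum.trans ?_
      calc ∑ w, P w * N w ≤ ∑ w, (P w * s + P w * (M * ind (s < N w))) := by
            refine Finset.sum_le_sum fun w _ => ?_
            rw [← mul_add]
            exact mul_le_mul_right (hNle w) _
        _ = (∑ w, P w) * s + M * ∑ w, P w * ind (s < N w) := by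
            rw [Finset.sum_add_distrib, Finset.sum_mul, Finset.mul_sum]
            congr 1
            exact Finset.sum_congr rfl fun w _ => by ring
        _ ≤ 1 * s + M * ∑ w, P w * ind (s < N w) := by gcongr
        _ = _ := by rw [one_mul]
    have hMδ : (M : ℝ≥0∞) * δ ≠ ∞ := ENNReal.mul_ne_top (ENNReal.natCast_ne_top M) hδ
    have h3 : M * δ + M * δ ≤ M * δ + 2 * (M * ∑ w, P w * ind (s < N w)) := by
      calc M * δ + M * δ ≤ (s + M * ∑ w, P w * ind (s < N w)) +
            (s + M * ∑ w, P w * ind (s < N w)) := add_le_add h2 h2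
        _ = 2 * s + 2 * (M * ∑ w, P w * ind (s < N w)) := by ring
        _ ≤ _ := by gcongr
    have h4 : M * δ ≤ 2 * (M * ∑ w, P w * ind (s < N w)) :=
      (ENNReal.add_le_add_iff_left hMδ).1 h3
    have hM0 : (M : ℝ≥0∞) ≠ 0 := by exact_mod_cast hM.ne'
    have h5 : δ ≤ 2 * ∑ w, P w * ind (s < N w) := by
      refine (ENNReal.mul_le_mul_iff_right hM0 (ENNReal.natCast_ne_top M)).1 (h4.trans (le_of_eq ?_))
      ring
    exact ENNReal.div_le_of_le_mul' h5
  calc δ / 2 * lam ^ s ≤ (∑ w, P w * ind (s < N w)) * lam ^ s := by gcongr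
    _ = ∑ w, P w * (ind (s < N w) * lam ^ s) := by
        rw [Finset.sum_mul]
        exact Finset.sum_congr rfl fun w _ => by ring
    _ ≤ _ := by
        refine Finset.sum_le_sum fun w _ => mul_le_mul_right ?_ _
        by_cases h : s < N w
        · rw [ind_pos h, one_mul]
          obtain ⟨i0, hi0⟩ : (Finset.univ.filter fun i : Fin M =>
              A w K ∧ ¬ A w (C ⊔ (K \ D i))).Nonempty := Finset.card_pos.1 (by
                change 0 < N w
                omega)
          have hAK : A w K := (Finset.mem_filter.1 hi0).2.1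
          refine le_iSup_of_le hAK (le_iSup_of_le (N w) ?_)
          let e := (Finset.univ.filter fun i : Fin M =>
              A w K ∧ ¬ A w (C ⊔ (K \ D i))).equivFin
          refine le_iSup_of_le (fun k => D (e.symm k).1) (le_iSup_of_le ⟨fun k => ⟨hD _, ?_⟩, ?_⟩
            (pow_le_pow_right₀ h1 h.le))
          · have hk := (Finset.mem_filter.1 (e.symm k).2).2.2
            intro hA'
            refine hk (hA w _ _ ?_ hA')
            rw [sup_sdiff]
            refine sup_le le_sup_right (le_trans sdiff_le le_sup_left)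
          · intro k l hkl
            refine hdis fun h => hkl ?_
            exact e.symm.injective (Subtype.ext h)
        · rw [ind_neg h, zero_mul]
          exact zero_le

variable [Fintype Λ]

/-- **(F)** -/
theorem essential {W : Type v} [Fintype W] {lam : ℝ≥0∞} (h1 : 1 ≤ lam) (hT : lam ≠ ∞)
    {w : Fin n → Lb Λ → ℝ≥0∞} (hc : ∀ i, (1 + lam) * w i (Sum.inl 0) ≤ w i (Sum.inl 1))
    (hf : ∀ i, w i (Sum.inl 0) ≠ ∞)
    (g : (Fin n → Option Λ) → ℝ≥0∞) (P : (Fin n → Option Λ) → W → ℝ≥0∞)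
    (hP : ∀ U, ∑ ν, P U ν ≤ 1) (A : (Fin n → Option Λ) → W → St n → Prop)
    (hA : ∀ U ν X Y, X ≤ Y → A U ν X → A U ν Y)
    {a δ : ℝ≥0∞} {M s : ℕ} (hM : 0 < M) (hs : 2 * (s : ℝ≥0∞) ≤ M * δ) :
    δ / 2 * lam ^ s * Ex w (fun ω => g (iS ω) *
      ind (Ess (P (iS ω)) (A (iS ω)) (vS ω) (cS ω) a (a + δ) M)) ≤ Ex w (fun ω => g (iS ω)) := by
  have h0 : lam ≠ 0 := (zero_lt_one.trans_le h1).ne'
  have hc1 : ∀ i, w i (Sum.inl 0) ≤ w i (Sum.inl 1) := fun i =>
    le_trans (by rw [add_mul, one_mul]; exact le_self_add) (hc i)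
  let w2 : Fin n → Lb Λ → ℝ≥0∞ := fun i => Sum.elim
    ![w i (Sum.inl 0), w i (Sum.inl 1) - w i (Sum.inl 0), w i (Sum.inl 2) + w i (Sum.inl 0)]
    (fun a => w i (Sum.inr a))
  have hs2 : Shift w w2 := by
    refine ⟨fun i => rfl, fun i => ?_, fun i => rfl, fun i a => rfl⟩
    exact (tsub_add_cancel_of_le (hc1 i)).symm
  have st1 : Ex w (fun ω => δ / 2 * lam ^ s * (g (iS ω) *
      ind (Ess (P (iS ω)) (A (iS ω)) (vS ω) (cS ω) a (a + δ) M))) ≤
      Ex w2 (fun ω => ⨆ _ : Unit, g (iS ω) * ∑ ν, P (iS ω) ν *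
        blk lam (A (iS ω) ν) (vS ω) (vS ω ⊔ cS ω)) := by
    refine le_trans (Ex_mono fun ω => ?_) (comparison (I := Unit) hs2
      (fun _ U K B => g U * ∑ ν, P U ν * blk lam (A U ν) K B) ?_ ?_)
    · by_cases h : Ess (P (iS ω)) (A (iS ω)) (vS ω) (cS ω) a (a + δ) M
      · rw [ind_pos h, mul_one]
        obtain ⟨K, hK, ha, D, hD, hdis, hb⟩ := h
        refine le_iSup_of_le () (le_iSup_of_le K (le_iSup_of_le hK ?_))
        rw [mul_comm]
        refine mul_le_mul_right ?_ _
        exact le_sum_blk (hP _) (hA _) h1 hM hs ha hD hdis hb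
      · rw [ind_neg h, mul_zero, mul_zero]
        exact zero_le
    · intro _ U K K' B hK
      exact mul_le_mul_right (Finset.sum_le_sum fun ν _ => mul_le_mul_right
        (blk_mono (hA U ν) hK le_rfl) _) _
    · intro _ U K B B' hB
      exact mul_le_mul_right (Finset.sum_le_sum fun ν _ => mul_le_mul_right
        (blk_mono (hA U ν) le_rfl hB) _) _
  have st2 : Ex w2 (fun ω => ⨆ _ : Unit, g (iS ω) * ∑ ν, P (iS ω) ν *
        blk lam (A (iS ω) ν) (vS ω) (vS ω ⊔ cS ω)) ≤
      ∑ ν, Ex w2 (fun ω => (g (iS ω) * P (iS ω) ν) *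
        ⨆ _ : A (iS ω) ν (vS ω), dT lam (A (iS ω) ν) (vS ω) (cS ω)) := by
    rw [← Ex_sum]
    refine Ex_mono fun ω => ?_
    rw [ciSup_const, Finset.mul_sum]
    refine Finset.sum_le_sum fun ν _ => ?_
    rw [← mul_assoc]
    exact mul_le_mul_right (blk_le h1 (hA _ _) (vS_disjoint_cS ω)) _
  have st3 : ∑ ν, Ex w2 (fun ω => (g (iS ω) * P (iS ω) ν) *
        ⨆ _ : A (iS ω) ν (vS ω), dT lam (A (iS ω) ν) (vS ω) (cS ω)) ≤
      ∑ ν, Ex w2 (fun ω => g (iS ω) * P (iS ω) ν) := by
    refine Finset.sum_le_sum fun ν _ => ?_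
    refine berge h0 hT (fun i => ?_) (fun U => g U * P U ν) (fun U => A U ν)
      (fun U X Y => hA U ν X Y)
    change lam * w i (Sum.inl 0) ≤ w i (Sum.inl 1) - w i (Sum.inl 0)
    refine ENNReal.le_sub_of_add_le_left (hf i) ?_
    refine le_trans (le_of_eq ?_) (hc i)
    ring
  have st4 : ∑ ν, Ex w2 (fun ω => g (iS ω) * P (iS ω) ν) ≤ Ex w (fun ω => g (iS ω)) := by
    rw [← Ex_sum]
    refine le_trans (Ex_mono (G := fun ω => g (iS ω)) fun ω => ?_) (le_of_eq ?_)
    · rw [← Finset.mul_sum]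
      exact mul_le_of_le_one_right' (hP _)
    · refine Ex_iS_congr (w := w2) (w' := w) (fun i => ?_) (fun i a => rfl) g
      change w i (Sum.inl 0) + (w i (Sum.inl 1) - w i (Sum.inl 0)) +
        (w i (Sum.inl 2) + w i (Sum.inl 0)) = _
      conv_rhs => rw [← tsub_add_cancel_of_le (hc1 i)]
      ring
  rw [← Ex_mul]
  exact st1.trans (st2.trans (st3.trans st4))

end Main

end Vale.Agent.P331.H726
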