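import Vale.Agent.P331.H726.Lab

/-!
# The remainder of `V` may be replaced by an independent copy

For a functional of `K` and `V \ K` which increases with the second argument the supremum over the
subsets `K` of `V` does not get smaller in the mean if `V \ K` is replaced by an exclusive copy
of `V`.
-/

namespace Vale.Agent.P331.H726

open scoped ENNReal
open Finset

universe u v

section Relabel

variable {E : Type*} [Fintype E] [DecidableEq E] {L L' : Type*} [Fintype L] [Fintype L']

/-- Change of the names of the labels. -/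
theorem Ex_equiv (σ : L ≃ L') (w : E → L' → ℝ≥0∞) (F : (E → L') → ℝ≥0∞) :
    Ex (fun e a => w e (σ a)) (fun ω => F (σ ∘ ω)) = Ex w F := by
  rw [Ex, Ex, ← (Equiv.arrowCongr (Equiv.refl E) σ).sum_comp]
  refine Finset.sum_congr rfl fun ω _ => ?_
  rfl

end Relabel

section Labels

variable {Λ : Type u}

/-- Is the inert label the additional one? -/
def isN (u : Option (Option Λ)) : Bool := u.elim false Option.isNone

/-- The set of the coordinates with the additional inert label. -/
def nS {n : ℕ} (U : Fin n → Option (Option Λ)) : St n := isN ∘ U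

/-- The old inert labels. -/
def jS {n : ℕ} (U : Fin n → Option (Option Λ)) : Fin n → Option Λ := Option.join ∘ U

theorem nS_cons {n : ℕ} (a : Option (Option Λ)) (U : Fin n → Option (Option Λ)) :
    nS (Fin.cons a U : Fin (n + 1) → Option (Option Λ)) = Fin.cons (isN a) (nS U) :=
  Fin.comp_cons _ _ _

theorem jS_cons {n : ℕ} (a : Option (Option Λ)) (U : Fin n → Option (Option Λ)) :
    jS (Fin.cons a U : Fin (n + 1) → Option (Option Λ)) = Fin.cons a.join (jS U) :=
  Fin.comp_cons _ _ _

end Labels

section Main

variable {Λ : Type u} [Fintype Λ]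

/-- From `w` to `w'` the mass of `V` is moved from `none` to the additional inert label. -/
structure Split {n : ℕ} (w : Fin n → Lb Λ → ℝ≥0∞) (w' : Fin n → Lb (Option Λ) → ℝ≥0∞) :
    Prop where
  v : ∀ i, w' i (Sum.inl 0) = w i (Sum.inl 0)
  c : ∀ i, w' i (Sum.inl 1) = w i (Sum.inl 1)
  o : ∀ i, w i (Sum.inl 2) = w' i (Sum.inl 2) + w i (Sum.inl 0)
  s : ∀ i, w' i (Sum.inr none) = w i (Sum.inl 0)
  r : ∀ i a, w' i (Sum.inr (some a)) = w i (Sum.inr a)

theorem key_B {p r a00 a01 a10 : ℝ≥0∞} (h : a00 ≤ a01) :
    p * max a01 a10 + (r + p) * a00 ≤ p * max a00 a10 + r * a00 + p * a01 := by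
  have h' : p * max a01 a10 + p * a00 ≤ p * max a00 a10 + p * a01 := by
    rcases le_total a01 a10 with h1 | h1
    · rw [max_eq_right h1, max_eq_right (h.trans h1)]
      gcongr
    · rw [max_eq_left h1, add_comm]
      gcongr
      exact le_max_left _ _
  calc p * max a01 a10 + (r + p) * a00 = (p * max a01 a10 + p * a00) + r * a00 := by ring
    _ ≤ (p * max a00 a10 + p * a01) + r * a00 := by gcongr
    _ = _ := by ring

/-- **(B)** -/
theorem splitting : ∀ {n : ℕ} {I : Type v} {w : Fin n → Lb Λ → ℝ≥0∞}
    {w' : Fin n → Lb (Option Λ) → ℝ≥0∞}, Split w w' →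
    ∀ (φ : I → (Fin n → Option Λ) → St n → St n → St n → ℝ≥0∞)
      (_ : ∀ i U A B B' C, B ≤ B' → φ i U A B C ≤ φ i U A B' C),
    Ex w (fun ω => ⨆ (i : I) (K : St n) (_ : K ≤ vS ω), φ i (iS ω) K (vS ω \ K) (cS ω)) ≤
      Ex w' (fun ω => ⨆ (i : I) (K : St n) (_ : K ≤ vS ω),
        φ i (jS (iS ω)) K (nS (iS ω)) (cS ω)) := by
  intro n
  induction n with
  | zero =>
    intro I w w' _ φ _
    rw [Ex_zero, Ex_zero]
    refine iSup_mono fun i => iSup_le fun K => iSup_le fun _ => ?_
    refine le_iSup_of_le K (le_iSup_of_le (fun i => i.elim0) (le_of_eq ?_))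
    rw [Subsingleton.elim (iS (finZeroElim : Fin 0 → Lb Λ)) (jS (iS finZeroElim)),
      Subsingleton.elim (vS (finZeroElim : Fin 0 → Lb Λ) \ K) (nS (iS finZeroElim)),
      Subsingleton.elim (cS (finZeroElim : Fin 0 → Lb Λ)) (cS finZeroElim)]
  | succ n ih =>
    intro I w w' hw φ hB
    have hw' : Split (fun i => w i.succ) (fun i => w' i.succ) :=
      ⟨fun i => hw.v _, fun i => hw.c _, fun i => hw.o _, fun i => hw.s _, fun i a => hw.r _ a⟩
    -- the suprema with fixed first coordinate
    let Q : Option Λ → Bool → Bool → Bool → (Fin n → Lb Λ) → ℝ≥0∞ := fun u a b c ω =>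
      ⨆ (i : I) (K : St n) (_ : K ≤ vS ω), φ i (Fin.cons u (iS ω)) (Fin.cons a K)
        (Fin.cons b (vS ω \ K)) (Fin.cons c (cS ω))
    let P : Option Λ → Bool → Bool → Bool → (Fin n → Lb (Option Λ)) → ℝ≥0∞ := fun u a b c ω =>
      ⨆ (i : I) (K : St n) (_ : K ≤ vS ω), φ i (Fin.cons u (jS (iS ω))) (Fin.cons a K)
        (Fin.cons b (nS (iS ω))) (Fin.cons c (cS ω))
    have hPQ : ∀ u a b c,
        Ex (fun i => w i.succ) (Q u a b c) ≤ Ex (fun i => w' i.succ) (P u a b c) := by
      intro u a b c
      exact ih hw' (fun i U A B C => φ i (Fin.cons u U) (Fin.cons a A) (Fin.cons b B)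
        (Fin.cons c C)) (fun i U A B B' C h => hB _ _ _ _ _ _ (cons_le_cons le_rfl h))
    have hPQ2 : Ex (fun i => w i.succ) (fun ω => max (Q none false false false ω)
        (Q none true false false ω)) ≤ Ex (fun i => w' i.succ)
        (fun ω => max (P none false false false ω) (P none true false false ω)) := by
      have h := ih (I := I × Bool) hw' (fun i U A B C => φ i.1 (Fin.cons none U)
        (Fin.cons i.2 A) (Fin.cons false B) (Fin.cons false C))
        (fun i U A B B' C h => hB _ _ _ _ _ _ (cons_le_cons le_rfl h))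
      refine le_trans (Ex_mono fun ω => ?_) (h.trans (Ex_mono fun ω => ?_))
      · refine max_le ?_ ?_
        · exact iSup_le fun i => iSup_le fun K => iSup_le fun hK =>
            le_iSup_of_le (i, false) (le_iSup_of_le K (le_iSup_of_le hK le_rfl))
        · exact iSup_le fun i => iSup_le fun K => iSup_le fun hK =>
            le_iSup_of_le (i, true) (le_iSup_of_le K (le_iSup_of_le hK le_rfl))
      · refine iSup_le fun i => iSup_le fun K => iSup_le fun hK => ?_
        obtain ⟨i, b⟩ := i
        cases b
        · exact le_max_of_le_left (le_iSup_of_le i (le_iSup_of_le K (le_iSup_of_le hK le_rfl)))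
        · exact le_max_of_le_right (le_iSup_of_le i (le_iSup_of_le K (le_iSup_of_le hK le_rfl)))
    have e0 : ∀ ω : Fin n → Lb Λ, (⨆ (i : I) (K : St (n + 1))
        (_ : K ≤ vS (Fin.cons (Sum.inl 0) ω : Fin (n + 1) → Lb Λ)),
        φ i (iS (Fin.cons (Sum.inl 0) ω : Fin (n + 1) → Lb Λ)) K
          (vS (Fin.cons (Sum.inl 0) ω : Fin (n + 1) → Lb Λ) \ K)
          (cS (Fin.cons (Sum.inl 0) ω : Fin (n + 1) → Lb Λ))) ≤
        max (Q none false true false ω) (Q none true false false ω) := by
      intro ω
      refine iSup_le fun i => iSup_le fun K => iSup_le fun hK => ?_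
      rw [vS_cons] at hK
      obtain ⟨b, K', rfl, -, hK'⟩ := exists_cons hK
      rw [cS_cons, iS_cons, vS_cons, cons_sdiff]
      cases b
      · refine le_trans ?_ (le_max_left _ _)
        exact le_iSup_of_le i (le_iSup_of_le K' (le_iSup_of_le hK' le_rfl))
      · refine le_trans ?_ (le_max_right _ _)
        exact le_iSup_of_le i (le_iSup_of_le K' (le_iSup_of_le hK' le_rfl))
    have e1 : ∀ (a : Lb Λ) (_ : isV a = false) (ω : Fin n → Lb Λ), (⨆ (i : I) (K : St (n + 1))
        (_ : K ≤ vS (Fin.cons a ω : Fin (n + 1) → Lb Λ)),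
        φ i (iS (Fin.cons a ω : Fin (n + 1) → Lb Λ)) K
          (vS (Fin.cons a ω : Fin (n + 1) → Lb Λ) \ K)
          (cS (Fin.cons a ω : Fin (n + 1) → Lb Λ))) ≤ Q (inert a) false false (isC a) ω := by
      intro a ha ω
      refine iSup_le fun i => iSup_le fun K => iSup_le fun hK => ?_
      rw [vS_cons, ha] at hK
      obtain ⟨b, K', rfl, hb, hK'⟩ := exists_cons hK
      obtain rfl : b = false := by
        cases b
        · rfl
        · exact absurd hb (by decide)
      rw [cS_cons, iS_cons, vS_cons, ha, cons_sdiff]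
      exact le_iSup_of_le i (le_iSup_of_le K' (le_iSup_of_le hK' le_rfl))
    have e2 : ∀ (a : Lb (Option Λ)) (_ : isV a = false) (ω : Fin n → Lb (Option Λ)),
        P (inert a).join false (isN (inert a)) (isC a) ω ≤ ⨆ (i : I) (K : St (n + 1))
          (_ : K ≤ vS (Fin.cons a ω : Fin (n + 1) → Lb (Option Λ))),
          φ i (jS (iS (Fin.cons a ω : Fin (n + 1) → Lb (Option Λ)))) K
          (nS (iS (Fin.cons a ω : Fin (n + 1) → Lb (Option Λ))))
          (cS (Fin.cons a ω : Fin (n + 1) → Lb (Option Λ))) := by
      intro a ha ω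
      refine iSup_le fun i => iSup_le fun K => iSup_le fun hK => ?_
      rw [cS_cons, iS_cons, vS_cons, ha, nS_cons, jS_cons]
      exact le_iSup_of_le i (le_iSup_of_le (Fin.cons false K) (le_iSup_of_le
        (cons_le_cons le_rfl hK) le_rfl))
    have e3 : ∀ (ω : Fin n → Lb (Option Λ)),
        max (P none false false false ω) (P none true false false ω) ≤ ⨆ (i : I) (K : St (n + 1))
          (_ : K ≤ vS (Fin.cons (Sum.inl 0) ω : Fin (n + 1) → Lb (Option Λ))),
          φ i (jS (iS (Fin.cons (Sum.inl 0) ω : Fin (n + 1) → Lb (Option Λ)))) K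
          (nS (iS (Fin.cons (Sum.inl 0) ω : Fin (n + 1) → Lb (Option Λ))))
          (cS (Fin.cons (Sum.inl 0) ω : Fin (n + 1) → Lb (Option Λ))) := by
      intro ω
      rw [cS_cons, iS_cons, vS_cons, nS_cons, jS_cons]
      refine max_le ?_ ?_
      · refine iSup_le fun i => iSup_le fun K => iSup_le fun hK => ?_
        exact le_iSup_of_le i (le_iSup_of_le (Fin.cons false K) (le_iSup_of_le
          (cons_le_cons (Bool.false_le _) hK) le_rfl))
      · refine iSup_le fun i => iSup_le fun K => iSup_le fun hK => ?_
        exact le_iSup_of_le i (le_iSup_of_le (Fin.cons true K) (le_iSup_of_le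
          (cons_le_cons le_rfl hK) le_rfl))
    have hQ1 : ∀ ω, Q none false false false ω ≤ Q none false true false ω := fun ω =>
      iSup_mono fun i => iSup_mono fun K => iSup_mono fun _ =>
        hB _ _ _ _ _ _ (cons_le_cons (by decide) le_rfl)
    rw [Ex_cons, Ex_cons, sum_labels, sum_labels, Fintype.sum_option]
    set E1 := Ex (fun i : Fin n => w i.succ) with hE1
    set E2 := Ex (fun i : Fin n => w' i.succ) with hE2
    have s1 : w 0 (Sum.inl 0) * E1 (fun ω => max (Q none false true false ω)
          (Q none true false false ω)) + w 0 (Sum.inl 2) * E1 (Q none false false false) ≤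
        w' 0 (Sum.inl 0) * E1 (fun ω => max (Q none false false false ω)
          (Q none true false false ω)) + w' 0 (Sum.inl 2) * E1 (Q none false false false) +
          w' 0 (Sum.inr none) * E1 (Q none false true false) := by
      rw [hE1, ← Ex_mul, ← Ex_mul, ← Ex_mul, ← Ex_mul, ← Ex_mul, ← Ex_add, ← Ex_add,
        ← Ex_add]
      refine Ex_mono fun ω => ?_
      rw [hw.v, hw.o, hw.s]
      exact key_B (hQ1 ω)
    calc _ ≤ w 0 (Sum.inl 0) * E1 (fun ω => max (Q none false true false ω)
          (Q none true false false ω)) + w 0 (Sum.inl 1) * E1 (Q none false false true) +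
          w 0 (Sum.inl 2) * E1 (Q none false false false) +
        ∑ a : Λ, w 0 (Sum.inr a) * E1 (Q (some a) false false false) := by
          gcongr with a _
          · exact Ex_mono fun ω => e0 ω
          · exact Ex_mono fun ω => e1 (Sum.inl 1) rfl ω
          · exact Ex_mono fun ω => e1 (Sum.inl 2) rfl ω
          · exact Ex_mono fun ω => e1 (Sum.inr a) rfl ω
      _ = (w 0 (Sum.inl 0) * E1 (fun ω => max (Q none false true false ω)
          (Q none true false false ω)) + w 0 (Sum.inl 2) * E1 (Q none false false false)) +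
          (w 0 (Sum.inl 1) * E1 (Q none false false true) +
        ∑ a : Λ, w 0 (Sum.inr a) * E1 (Q (some a) false false false)) := by ring
      _ ≤ (w' 0 (Sum.inl 0) * E1 (fun ω => max (Q none false false false ω)
          (Q none true false false ω)) + w' 0 (Sum.inl 2) * E1 (Q none false false false) +
          w' 0 (Sum.inr none) * E1 (Q none false true false)) +
          (w' 0 (Sum.inl 1) * E1 (Q none false false true) +
        ∑ a : Λ, w' 0 (Sum.inr (some a)) * E1 (Q (some a) false false false)) := by
          refine add_le_add s1 (le_of_eq ?_)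
          rw [hw.c]
          exact congrArg₂ _ rfl (Finset.sum_congr rfl fun a _ => by rw [hw.r])
      _ ≤ (w' 0 (Sum.inl 0) * E2 (fun ω => max (P none false false false ω)
          (P none true false false ω)) + w' 0 (Sum.inl 2) * E2 (P none false false false) +
          w' 0 (Sum.inr none) * E2 (P none false true false)) +
          (w' 0 (Sum.inl 1) * E2 (P none false false true) +
        ∑ a : Λ, w' 0 (Sum.inr (some a)) * E2 (P (some a) false false false)) := by
          gcongr with a _
          · exact hPQ _ _ _ _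
          · exact hPQ _ _ _ _
          · exact hPQ _ _ _ _
          · exact hPQ _ _ _ _
      _ = w' 0 (Sum.inl 0) * E2 (fun ω => max (P none false false false ω)
          (P none true false false ω)) + w' 0 (Sum.inl 1) * E2 (P none false false true) +
          w' 0 (Sum.inl 2) * E2 (P none false false false) +
          (w' 0 (Sum.inr none) * E2 (P none false true false) +
          ∑ a : Λ, w' 0 (Sum.inr (some a)) * E2 (P (some a) false false false)) := by ring
      _ ≤ _ := by
          gcongr with a _
          · exact Ex_mono fun ω => e3 ω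
          · exact Ex_mono fun ω => e2 (Sum.inl 1) rfl ω
          · exact Ex_mono fun ω => e2 (Sum.inl 2) rfl ω
          · exact Ex_mono fun ω => e2 (Sum.inr none) rfl ω
          · exact Ex_mono fun ω => e2 (Sum.inr (some a)) rfl ω

end Main

end Vale.Agent.P331.H726
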