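import Vale.Agent.P331.H726.Berge
import Vale.Agent.P331.H726.Split

/-!
# The exceptional event
-/

namespace Vale.Agent.P331.H726

open scoped ENNReal
open Finset

universe u v

/-- The indicator of a proposition. -/
noncomputable def ind (p : Prop) : ℝ≥0∞ := ⨆ _ : p, 1

theorem ind_pos {p : Prop} (h : p) : ind p = 1 := iSup_pos h

theorem ind_neg {p : Prop} (h : ¬ p) : ind p = 0 := iSup_neg h

theorem ind_mono {p q : Prop} (h : p → q) : ind p ≤ ind q := iSup_le fun hp => by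
  rw [ind_pos (h hp)]

theorem ind_le_one (p : Prop) : ind p ≤ 1 := iSup_le fun _ => le_rfl

section Congr

variable {Λ : Type u} [Fintype Λ]

/-- The law of the inert labels. -/
theorem Ex_iS_congr : ∀ {n : ℕ} {w w' : Fin n → Lb Λ → ℝ≥0∞}
    (_ : ∀ i, w i (Sum.inl 0) + w i (Sum.inl 1) + w i (Sum.inl 2) =
      w' i (Sum.inl 0) + w' i (Sum.inl 1) + w' i (Sum.inl 2))
    (_ : ∀ i a, w i (Sum.inr a) = w' i (Sum.inr a)) (g : (Fin n → Option Λ) → ℝ≥0∞),
    Ex w (fun ω => g (iS ω)) = Ex w' (fun ω => g (iS ω)) := by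
  intro n
  induction n with
  | zero =>
    intro w w' _ _ g
    rw [Ex_zero, Ex_zero]
  | succ n ih =>
    intro w w' h1 h2 g
    have h := fun u => ih (w := fun i => w i.succ) (w' := fun i => w' i.succ) (fun i => h1 i.succ)
      (fun i a => h2 i.succ a) (fun U => g (Fin.cons u U))
    have hE : ∀ (w : Fin (n + 1) → Lb Λ → ℝ≥0∞), Ex w (fun ω => g (iS ω)) =
        (w 0 (Sum.inl 0) + w 0 (Sum.inl 1) + w 0 (Sum.inl 2)) *
          Ex (fun i => w i.succ) (fun ω => g (Fin.cons none (iS ω))) +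
        ∑ a : Λ, w 0 (Sum.inr a) *
          Ex (fun i => w i.succ) (fun ω => g (Fin.cons (some a) (iS ω))) := by
      intro w
      rw [Ex_cons, sum_labels]
      simp only [iS_cons]
      change w 0 (Sum.inl 0) * Ex (fun i => w i.succ) (fun ω => g (Fin.cons none (iS ω))) +
        w 0 (Sum.inl 1) * Ex (fun i => w i.succ) (fun ω => g (Fin.cons none (iS ω))) +
        w 0 (Sum.inl 2) * Ex (fun i => w i.succ) (fun ω => g (Fin.cons none (iS ω))) + _ = _
      rw [add_mul, add_mul]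
      rfl
    rw [hE, hE, h1, h]
    congr 1
    exact Finset.sum_congr rfl fun a _ => by rw [h2, h]

/-- The law of the inert labels after the splitting. -/
theorem Ex_jS_congr : ∀ {n : ℕ} {w : Fin n → Lb Λ → ℝ≥0∞} {w' : Fin n → Lb (Option Λ) → ℝ≥0∞}
    (_ : ∀ i, w i (Sum.inl 0) + w i (Sum.inl 1) + w i (Sum.inl 2) =
      w' i (Sum.inl 0) + w' i (Sum.inl 1) + w' i (Sum.inl 2) + w' i (Sum.inr none))
    (_ : ∀ i a, w i (Sum.inr a) = w' i (Sum.inr (some a))) (g : (Fin n → Option Λ) → ℝ≥0∞),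
    Ex w (fun ω => g (iS ω)) = Ex w' (fun ω => g (jS (iS ω))) := by
  intro n
  induction n with
  | zero =>
    intro w w' _ _ g
    rw [Ex_zero, Ex_zero]
    congr 1
    funext i
    exact i.elim0
  | succ n ih =>
    intro w w' h1 h2 g
    have h := fun u => ih (w := fun i => w i.succ) (w' := fun i => w' i.succ) (fun i => h1 i.succ)
      (fun i a => h2 i.succ a) (fun U => g (Fin.cons u U))
    have hE : ∀ (w : Fin (n + 1) → Lb Λ → ℝ≥0∞), Ex w (fun ω => g (iS ω)) =
        (w 0 (Sum.inl 0) + w 0 (Sum.inl 1) + w 0 (Sum.inl 2)) *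
          Ex (fun i => w i.succ) (fun ω => g (Fin.cons none (iS ω))) +
        ∑ a : Λ, w 0 (Sum.inr a) *
          Ex (fun i => w i.succ) (fun ω => g (Fin.cons (some a) (iS ω))) := by
      intro w
      rw [Ex_cons, sum_labels]
      simp only [iS_cons]
      change w 0 (Sum.inl 0) * Ex (fun i => w i.succ) (fun ω => g (Fin.cons none (iS ω))) +
        w 0 (Sum.inl 1) * Ex (fun i => w i.succ) (fun ω => g (Fin.cons none (iS ω))) +
        w 0 (Sum.inl 2) * Ex (fun i => w i.succ) (fun ω => g (Fin.cons none (iS ω))) + _ = _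
      rw [add_mul, add_mul]
      rfl
    have hE' : ∀ (w : Fin (n + 1) → Lb (Option Λ) → ℝ≥0∞), Ex w (fun ω => g (jS (iS ω))) =
        (w 0 (Sum.inl 0) + w 0 (Sum.inl 1) + w 0 (Sum.inl 2) + w 0 (Sum.inr none)) *
          Ex (fun i => w i.succ) (fun ω => g (Fin.cons none (jS (iS ω)))) +
        ∑ a : Λ, w 0 (Sum.inr (some a)) *
          Ex (fun i => w i.succ) (fun ω => g (Fin.cons (some a) (jS (iS ω)))) := by
      intro w
      rw [Ex_cons, sum_labels, Fintype.sum_option]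
      simp only [iS_cons, jS_cons]
      change w 0 (Sum.inl 0) * Ex (fun i => w i.succ) (fun ω => g (Fin.cons none (jS (iS ω)))) +
        w 0 (Sum.inl 1) * Ex (fun i => w i.succ) (fun ω => g (Fin.cons none (jS (iS ω)))) +
        w 0 (Sum.inl 2) * Ex (fun i => w i.succ) (fun ω => g (Fin.cons none (jS (iS ω)))) +
        (w 0 (Sum.inr none) *
          Ex (fun i => w i.succ) (fun ω => g (Fin.cons none (jS (iS ω)))) + _) = _
      rw [add_mul, add_mul, add_mul, ← add_assoc]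
      rfl
    rw [hE, hE', h1, h]
    congr 1
    exact Finset.sum_congr rfl fun a _ => by rw [h2, h]

end Congr

section Swap

variable {Λ : Type u}

/-- Exchange `V` with the additional inert label. -/
def swV : Lb (Option Λ) → Lb (Option Λ) := Sum.elim
  (fun j => if j = 0 then Sum.inr none else Sum.inl j)
  (fun a => a.elim (Sum.inl 0) fun a => Sum.inr (some a))

theorem swV_swV (a : Lb (Option Λ)) : swV (swV a) = a := by
  rcases a with j | a
  · fin_cases j <;> rfl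
  · rcases a with _ | a <;> rfl

/-- The exchange of `V` with the additional inert label. -/
def swVE : Lb (Option Λ) ≃ Lb (Option Λ) := ⟨swV, swV, swV_swV, swV_swV⟩

/-- Exchange `C` with the additional inert label. -/
def swC : Lb (Option Λ) → Lb (Option Λ) := Sum.elim
  (fun j => if j = 1 then Sum.inr none else Sum.inl j)
  (fun a => a.elim (Sum.inl 1) fun a => Sum.inr (some a))

theorem swC_swC (a : Lb (Option Λ)) : swC (swC a) = a := by
  rcases a with j | a
  · fin_cases j <;> rfl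
  · rcases a with _ | a <;> rfl

/-- The exchange of `C` with the additional inert label. -/
def swCE : Lb (Option Λ) ≃ Lb (Option Λ) := ⟨swC, swC, swC_swC, swC_swC⟩

variable {n : ℕ}

theorem vS_swV (ω : Fin n → Lb (Option Λ)) : vS (swV ∘ ω) = nS (iS ω) := by
  funext i
  change isV (swV (ω i)) = isN (inert (ω i))
  rcases ω i with j | a
  · fin_cases j <;> rfl
  · rcases a with _ | a <;> rfl

theorem nS_swV (ω : Fin n → Lb (Option Λ)) : nS (iS (swV ∘ ω)) = vS ω := by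
  funext i
  change isN (inert (swV (ω i))) = isV (ω i)
  rcases ω i with j | a
  · fin_cases j <;> rfl
  · rcases a with _ | a <;> rfl

theorem cS_swV (ω : Fin n → Lb (Option Λ)) : cS (swV ∘ ω) = cS ω := by
  funext i
  change isC (swV (ω i)) = isC (ω i)
  rcases ω i with j | a
  · fin_cases j <;> rfl
  · rcases a with _ | a <;> rfl

theorem jS_swV (ω : Fin n → Lb (Option Λ)) : jS (iS (swV ∘ ω)) = jS (iS ω) := by
  funext i
  change (inert (swV (ω i))).join = (inert (ω i)).join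
  rcases ω i with j | a
  · fin_cases j <;> rfl
  · rcases a with _ | a <;> rfl

theorem vS_swC (ω : Fin n → Lb (Option Λ)) : vS (swC ∘ ω) = vS ω := by
  funext i
  change isV (swC (ω i)) = isV (ω i)
  rcases ω i with j | a
  · fin_cases j <;> rfl
  · rcases a with _ | a <;> rfl

theorem nS_swC (ω : Fin n → Lb (Option Λ)) : nS (iS (swC ∘ ω)) = cS ω := by
  funext i
  change isN (inert (swC (ω i))) = isC (ω i)
  rcases ω i with j | a
  · fin_cases j <;> rfl
  · rcases a with _ | a <;> rfl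

theorem cS_swC (ω : Fin n → Lb (Option Λ)) : cS (swC ∘ ω) = nS (iS ω) := by
  funext i
  change isC (swC (ω i)) = isN (inert (ω i))
  rcases ω i with j | a
  · fin_cases j <;> rfl
  · rcases a with _ | a <;> rfl

theorem jS_swC (ω : Fin n → Lb (Option Λ)) : jS (iS (swC ∘ ω)) = jS (iS ω) := by
  funext i
  change (inert (swC (ω i))).join = (inert (ω i)).join
  rcases ω i with j | a
  · fin_cases j <;> rfl
  · rcases a with _ | a <;> rfl

end Swap

section Event

variable {n : ℕ}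

/-- The exceptional event: some subset `K` of `V` does not get into the family with the help
of `C`, but with the help of the rest of `V`, and so robustly. -/
def Exc (A : St n → Prop) (V C : St n) (j : ℕ) : Prop :=
  ∃ K ≤ V, ¬ A (K ⊔ C) ∧ ∀ D ≤ V \ K, crd D < j → A (K ⊔ ((V \ K) \ D))

theorem crd_mono {D D' : St n} (h : D ≤ D') : crd D ≤ crd D' :=
  Finset.sum_le_sum fun i _ => Bool.toNat_le_toNat (h i)

theorem exc_of {A : St n → Prop} (hA : ∀ X Y, X ≤ Y → A X → A Y) {V C K R : St n} {j : ℕ}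
    (hK : K ≤ V) (hR : R ≤ V) (hKR : Disjoint K R) (h1 : ¬ A (K ⊔ C))
    (h2 : ∀ D ≤ R, crd D < j → A (K ⊔ (R \ D))) : Exc A V C j := by
  refine ⟨K, hK, h1, fun D hD hj => ?_⟩
  refine hA _ _ ?_ (h2 (D ⊓ R) inf_le_right ((crd_mono inf_le_left).trans_lt hj))
  refine sup_le_sup le_rfl ?_
  rw [sdiff_inf, sdiff_self, sup_bot_eq]
  refine sdiff_le_sdiff ?_ le_rfl
  exact le_sdiff.2 ⟨hR, hKR.symm⟩

end Event

section Main

variable {Λ : Type u} [Fintype Λ]

/-- **(E)** -/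
theorem exceptional {lam : ℝ≥0∞} (h1 : 1 ≤ lam) (hT : lam ≠ ∞) {n : ℕ}
    {w : Fin n → Lb Λ → ℝ≥0∞} (hc : ∀ i, (1 + lam) * w i (Sum.inl 0) ≤ w i (Sum.inl 1))
    (ho : ∀ i, w i (Sum.inl 0) ≤ w i (Sum.inl 2)) (hf : ∀ i, w i (Sum.inl 0) ≠ ∞)
    (g : (Fin n → Option Λ) → ℝ≥0∞) (A : (Fin n → Option Λ) → St n → Prop)
    (hA : ∀ U X Y, X ≤ Y → A U X → A U Y) (j : ℕ) :
    lam ^ j * Ex w (fun ω => g (iS ω) * ind (Exc (A (iS ω)) (vS ω) (cS ω) j)) ≤
      Ex w (fun ω => g (iS ω)) := by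
  have h0 : lam ≠ 0 := (zero_lt_one.trans_le h1).ne'
  have hc1 : ∀ i, w i (Sum.inl 0) ≤ w i (Sum.inl 1) := fun i =>
    le_trans (by rw [add_mul, one_mul]; exact le_self_add) (hc i)
  -- the laws
  let w1 : Fin n → Lb (Option Λ) → ℝ≥0∞ := fun i => Sum.elim
    ![w i (Sum.inl 0), w i (Sum.inl 1), w i (Sum.inl 2) - w i (Sum.inl 0)]
    (fun a => a.elim (w i (Sum.inl 0)) fun a => w i (Sum.inr a))
  let w2 : Fin n → Lb (Option Λ) → ℝ≥0∞ := fun i => Sum.elim
    ![w i (Sum.inl 0), w i (Sum.inl 1) - w i (Sum.inl 0), w i (Sum.inl 2)]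
    (fun a => a.elim (w i (Sum.inl 0)) fun a => w i (Sum.inr a))
  have hs1 : Split w w1 := by
    refine ⟨fun i => rfl, fun i => rfl, fun i => ?_, fun i => rfl, fun i a => rfl⟩
    exact (tsub_add_cancel_of_le (ho i)).symm
  have hs2 : Shift w1 w2 := by
    refine ⟨fun i => rfl, fun i => ?_, fun i => ?_, fun i a => rfl⟩
    · exact (tsub_add_cancel_of_le (hc1 i)).symm
    · exact (tsub_add_cancel_of_le (ho i)).symm
  -- the splitting
  have st1 : Ex w (fun ω => g (iS ω) * ind (Exc (A (iS ω)) (vS ω) (cS ω) j)) ≤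
      Ex w1 (fun ω => ⨆ (_ : Unit) (K : St n) (_ : K ≤ vS ω),
        g (jS (iS ω)) * ind (¬ A (jS (iS ω)) (K ⊔ cS ω) ∧
          ∀ D ≤ nS (iS ω), crd D < j → A (jS (iS ω)) (K ⊔ (nS (iS ω) \ D)))) := by
    refine le_trans (Ex_mono fun ω => ?_) (splitting (I := Unit) hs1
      (fun _ U K B C => g U * ind (¬ A U (K ⊔ C) ∧ ∀ D ≤ B, crd D < j → A U (K ⊔ (B \ D)))) ?_)
    · by_cases h : Exc (A (iS ω)) (vS ω) (cS ω) j
      · obtain ⟨K, hK, h1, h2⟩ := h
        refine le_iSup_of_le () (le_iSup_of_le K (le_iSup_of_le hK ?_))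
        exact mul_le_mul_right (ind_mono fun _ => ⟨h1, h2⟩) _
      · rw [ind_neg h, mul_zero]
        exact zero_le
    · intro _ U K B B' C hB
      refine mul_le_mul_right (ind_mono fun h => ⟨h.1, fun D hD hj => ?_⟩) _
      refine hA _ _ _ ?_ (h.2 (D ⊓ B) inf_le_right ((crd_mono inf_le_left).trans_lt hj))
      refine sup_le_sup le_rfl ?_
      rw [sdiff_inf, sdiff_self, sup_bot_eq]
      exact sdiff_le_sdiff hB le_rfl
  -- the comparison
  have st2 : Ex w1 (fun ω => ⨆ (_ : Unit) (K : St n) (_ : K ≤ vS ω),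
        g (jS (iS ω)) * ind (¬ A (jS (iS ω)) (K ⊔ cS ω) ∧
          ∀ D ≤ nS (iS ω), crd D < j → A (jS (iS ω)) (K ⊔ (nS (iS ω) \ D)))) ≤
      Ex w2 (fun ω => ⨆ _ : Unit, g (jS (iS ω)) * ind (¬ A (jS (iS ω)) (vS ω ⊔ cS ω) ∧
          ∀ D ≤ nS (iS ω), crd D < j → A (jS (iS ω)) (vS ω ⊔ (nS (iS ω) \ D)))) := by
    refine comparison (I := Unit) hs2 (fun _ U' K B => g (jS U') * ind (¬ A (jS U') B ∧
      ∀ D ≤ nS U', crd D < j → A (jS U') (K ⊔ (nS U' \ D)))) ?_ ?_
    · intro _ U' K K' B hK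
      refine mul_le_mul_right (ind_mono fun h => ⟨h.1, fun D hD hj => ?_⟩) _
      exact hA _ _ _ (sup_le_sup hK le_rfl) (h.2 D hD hj)
    · intro _ U' K B B' hB
      exact mul_le_mul_right (ind_mono fun h => ⟨fun h' => h.1 (hA _ _ _ hB h'), h.2⟩) _
  -- the dual Berge inequality
  have st3 := berge' h0 hT (w := fun i a => w2 i (swV a)) (fun i => by
      change lam * w i (Sum.inl 0) ≤ w i (Sum.inl 1) - w i (Sum.inl 0)
      refine ENNReal.le_sub_of_add_le_left (hf i) ?_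
      refine le_trans (le_of_eq ?_) (hc i)
      ring) (fun U => g (jS U)) (fun U X => ¬ A (jS U) (nS U ⊔ X))
      (fun U X Y h hY hX => hY (hA _ _ _ (sup_le_sup le_rfl h) hX))
  have st4 : Ex w2 (fun ω => ⨆ _ : Unit, g (jS (iS ω)) * ind (¬ A (jS (iS ω)) (vS ω ⊔ cS ω) ∧
          ∀ D ≤ nS (iS ω), crd D < j → A (jS (iS ω)) (vS ω ⊔ (nS (iS ω) \ D)))) =
      Ex (fun i a => w2 i (swV a)) (fun ω => g (jS (iS ω)) *
        ind (¬ A (jS (iS ω)) (nS (iS ω) ⊔ cS ω) ∧
          ∀ D ≤ vS ω, crd D < j → A (jS (iS ω)) (nS (iS ω) ⊔ (vS ω \ D)))) := by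
    rw [← Ex_equiv swVE w2]
    refine congrArg _ (funext fun ω => ?_)
    rw [ciSup_const]
    change g (jS (iS (swV ∘ ω))) * ind (¬ A (jS (iS (swV ∘ ω))) (vS (swV ∘ ω) ⊔ cS (swV ∘ ω)) ∧
          ∀ D ≤ nS (iS (swV ∘ ω)), crd D < j → A (jS (iS (swV ∘ ω)))
            (vS (swV ∘ ω) ⊔ (nS (iS (swV ∘ ω)) \ D))) = _
    rw [vS_swV, cS_swV, nS_swV, jS_swV]
  have st5 : Ex (fun i a => w2 i (swV a)) (fun ω : Fin n → Lb (Option Λ) => g (jS (iS ω))) =
      Ex w (fun ω => g (iS ω)) := by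
    have h := Ex_equiv swVE w2 (fun ω => g (jS (iS ω)))
    have h' : (fun ω : Fin n → Lb (Option Λ) => g (jS (iS (swV ∘ ω)))) =
        fun ω => g (jS (iS ω)) := funext fun ω => by rw [jS_swV]
    change Ex (fun i a => w2 i (swV a)) (fun ω => g (jS (iS (swV ∘ ω)))) = _ at h
    rw [h'] at h
    rw [h]
    refine (Ex_jS_congr (fun i => ?_) (fun i a => rfl) g).symm
    change w i (Sum.inl 0) + w i (Sum.inl 1) + w i (Sum.inl 2) =
      w i (Sum.inl 0) + (w i (Sum.inl 1) - w i (Sum.inl 0)) + w i (Sum.inl 2) + w i (Sum.inl 0)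
    conv_lhs => rw [← tsub_add_cancel_of_le (hc1 i)]
    ring
  calc lam ^ j * Ex w (fun ω => g (iS ω) * ind (Exc (A (iS ω)) (vS ω) (cS ω) j))
      ≤ lam ^ j * Ex (fun i a => w2 i (swV a)) (fun ω => g (jS (iS ω)) *
        ind (¬ A (jS (iS ω)) (nS (iS ω) ⊔ cS ω) ∧
          ∀ D ≤ vS ω, crd D < j → A (jS (iS ω)) (nS (iS ω) ⊔ (vS ω \ D)))) := by
        rw [← st4]
        exact mul_le_mul_right (st1.trans st2) _
    _ ≤ Ex (fun i a => w2 i (swV a)) (fun ω => g (jS (iS ω)) *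
        ⨆ _ : ¬ A (jS (iS ω)) (nS (iS ω) ⊔ cS ω),
          rT lam (fun X => ¬ A (jS (iS ω)) (nS (iS ω) ⊔ X)) (vS ω)) := by
        rw [← Ex_mul]
        refine Ex_mono fun ω => ?_
        by_cases h : ¬ A (jS (iS ω)) (nS (iS ω) ⊔ cS ω) ∧
          ∀ D ≤ vS ω, crd D < j → A (jS (iS ω)) (nS (iS ω) ⊔ (vS ω \ D))
        · rw [ind_pos h, mul_one, mul_comm, iSup_pos h.1]
          refine mul_le_mul_right (le_iInf fun D => le_iInf fun hD => le_iInf fun hD' => ?_) _
          refine pow_le_pow_right₀ h1 ?_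
          by_contra hj
          exact hD' (h.2 D hD (not_le.1 hj))
        · rw [ind_neg h, mul_zero, mul_zero]
          exact zero_le
    _ ≤ _ := st3
    _ = _ := st5

end Main

end Vale.Agent.P331.H726
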