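import Vale.Agent.P331.H726.Ess

/-!
# A fragment of bounded size
-/

namespace Vale.Agent.P331.H726

open scoped ENNReal
open Finset

universe u v

section Det

variable {n : ℕ} {W : Type v} [Fintype W]

/-- Some subset `K` of `V` is missed with probability at most `a`, but each of its subsets with
at most `N` elements is missed with probability more than `b`, even with the help of two further
sets. -/
def Gap (P : W → ℝ≥0∞) (A : W → St n → Prop) (V C C' : St n) (a b : ℝ≥0∞) (N : ℕ) : Prop :=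
  ∃ K ≤ V, miss P A K ≤ a ∧ ∀ S ≤ K, crd S ≤ N → b < miss P A (S ⊔ C ⊔ C')

theorem crd_sup_le (D D' : St n) : crd (D ⊔ D') ≤ crd D + crd D' := by
  rw [crd, crd, crd, ← Finset.sum_add_distrib]
  refine Finset.sum_le_sum fun i _ => ?_
  change (D i || D' i).toNat ≤ _
  cases D i <;> cases D' i <;> decide

theorem crd_bot : crd (⊥ : St n) = 0 := by
  rw [crd]
  exact Finset.sum_eq_zero fun i _ => rfl

theorem gap_cases {P : W → ℝ≥0∞} {A : W → St n → Prop}
    (hA : ∀ w X Y, X ≤ Y → A w X → A w Y) {V C C' : St n} {a b : ℝ≥0∞} {M j N : ℕ}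
    (hN : M * j ≤ N) (h : Gap P A V C C' a b N) :
    Exc (fun X => miss P A (C ⊔ X) ≤ b) V C' j ∨ Ess P A V C a b M := by
  obtain ⟨K, hK, ha, hS⟩ := h
  by_contra hcon
  rw [not_or] at hcon
  obtain ⟨hE, hF⟩ := hcon
  have key : ∀ m, m ≤ M → ∃ (D : Fin m → St n) (S : St n), S ≤ K ∧ crd S ≤ m * j ∧
      (∀ i, D i ≤ S) ∧ (Pairwise fun i k => Disjoint (D i) (D k)) ∧
      ∀ i, b ≤ miss P A (C ⊔ (K \ D i)) := by
    intro m
    induction m with
    | zero =>
      intro _
      refine ⟨fun _ => ⊥, ⊥, bot_le, ?_, fun _ => le_rfl, fun i => i.elim0, fun i => i.elim0⟩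
      rw [crd_bot, zero_mul]
    | succ m ih =>
      intro hm
      obtain ⟨D, S, hSK, hcS, hDS, hdis, hb⟩ := ih (by omega)
      -- the set `S` is small
      have hSN : crd S ≤ N := hcS.trans ((Nat.mul_le_mul_right j (by omega)).trans hN)
      have h1 : ¬ miss P A (C ⊔ (S ⊔ C')) ≤ b := by
        rw [not_le]
        refine (hS S hSK hSN).trans_le (le_of_eq ?_)
        rw [← sup_assoc, sup_comm C S]
      have h2 : ∃ D' ≤ K \ S, crd D' < j ∧ b < miss P A (C ⊔ (S ⊔ ((K \ S) \ D'))) := by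
        by_contra hne
        push Not at hne
        exact hE (exc_of (fun X Y hXY hX => (miss_anti hA (sup_le_sup le_rfl hXY)).trans hX)
          (hSK.trans hK) (sdiff_le.trans hK) disjoint_sdiff_self_right h1 hne)
      obtain ⟨D', hD', hj, hbD⟩ := h2
      have hdS : Disjoint S D' := (disjoint_sdiff_self_right (x := S) (y := K)).mono_right hD'
      have heq : S ⊔ ((K \ S) \ D') = K \ D' := by
        rw [sdiff_right_comm]
        refine sup_sdiff_cancel_right (le_sdiff.2 ⟨hSK, hdS⟩)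
      rw [heq] at hbD
      refine ⟨Fin.snoc D D', S ⊔ D', sup_le hSK (hD'.trans sdiff_le), ?_, ?_, ?_, ?_⟩
      · refine (crd_sup_le _ _).trans ?_
        rw [Nat.succ_mul]
        exact add_le_add hcS hj.le
      · intro i
        refine Fin.lastCases ?_ (fun i => ?_) i
        · rw [Fin.snoc_last]
          exact le_sup_right
        · rw [Fin.snoc_castSucc]
          exact (hDS i).trans le_sup_left
      · intro i k
        refine Fin.lastCases ?_ (fun i => ?_) i
        · refine Fin.lastCases ?_ (fun k => ?_) k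
          · intro h
            exact absurd rfl h
          · intro _
            change Disjoint (Fin.snoc (α := fun _ => St n) D D' (Fin.last m))
              (Fin.snoc (α := fun _ => St n) D D' k.castSucc)
            rw [Fin.snoc_last, Fin.snoc_castSucc]
            exact hdS.symm.mono_right (hDS k)
        · refine Fin.lastCases ?_ (fun k => ?_) k
          · intro _
            change Disjoint (Fin.snoc (α := fun _ => St n) D D' i.castSucc)
              (Fin.snoc (α := fun _ => St n) D D' (Fin.last m))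
            rw [Fin.snoc_last, Fin.snoc_castSucc]
            exact hdS.mono_left (hDS i)
          · intro h
            change Disjoint (Fin.snoc (α := fun _ => St n) D D' i.castSucc)
              (Fin.snoc (α := fun _ => St n) D D' k.castSucc)
            rw [Fin.snoc_castSucc, Fin.snoc_castSucc]
            exact hdis fun h' => h (by rw [h'])
      · intro i
        refine Fin.lastCases ?_ (fun i => ?_) i
        · rw [Fin.snoc_last]
          exact hbD.le
        · rw [Fin.snoc_castSucc]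
          exact hb i
  obtain ⟨D, S, hSK, -, hDS, hdis, hb⟩ := key M le_rfl
  exact hF ⟨K, hK, ha, D, fun i => (hDS i).trans hSK, hdis, hb⟩

end Det

section Main

variable {Λ : Type u} [Fintype Λ] {n : ℕ}

/-- **(G)** -/
theorem gap {W : Type v} [Fintype W] {lam : ℝ≥0∞} (h1 : 1 ≤ lam) (hT : lam ≠ ∞)
    {w : Fin n → Lb (Option Λ) → ℝ≥0∞}
    (hc : ∀ i, (1 + lam) * w i (Sum.inl 0) ≤ w i (Sum.inl 1))
    (hc' : ∀ i, (1 + lam) * w i (Sum.inl 0) ≤ w i (Sum.inr none))
    (ho : ∀ i, w i (Sum.inl 0) ≤ w i (Sum.inl 2)) (hf : ∀ i, w i (Sum.inl 0) ≠ ∞)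
    (g : (Fin n → Option Λ) → ℝ≥0∞) (P : (Fin n → Option Λ) → W → ℝ≥0∞)
    (hP : ∀ U, ∑ ν, P U ν ≤ 1) (A : (Fin n → Option Λ) → W → St n → Prop)
    (hA : ∀ U ν X Y, X ≤ Y → A U ν X → A U ν Y)
    {a δ : ℝ≥0∞} (hδ : δ ≠ 0) (hδ' : δ ≠ ∞) {M s j N : ℕ} (hM : 0 < M)
    (hs : 2 * (s : ℝ≥0∞) ≤ M * δ) (hN : M * j ≤ N) :
    Ex w (fun ω => g (jS (iS ω)) *
      ind (Gap (P (jS (iS ω))) (A (jS (iS ω))) (vS ω) (cS ω) (nS (iS ω)) a (a + δ) N)) ≤
    ((lam ^ j)⁻¹ + (δ / 2 * lam ^ s)⁻¹) * Ex w (fun ω => g (jS (iS ω))) := by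
  have h0 : lam ≠ 0 := (zero_lt_one.trans_le h1).ne'
  -- the exceptional event
  have hE := exceptional h1 hT (w := fun i a => w i (swC a)) hc' ho hf (fun U => g (jS U))
    (fun U X => miss (P (jS U)) (A (jS U)) (nS U ⊔ X) ≤ a + δ)
    (fun U X Y hXY hX => (miss_anti (hA _) (sup_le_sup le_rfl hXY)).trans hX) j
  have e1 : Ex (fun i a => w i (swC a)) (fun ω : Fin n → Lb (Option Λ) => g (jS (iS ω))) =
      Ex w (fun ω => g (jS (iS ω))) := by
    have h := Ex_equiv swCE w (fun ω => g (jS (iS ω)))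
    have h' : (fun ω : Fin n → Lb (Option Λ) => g (jS (iS (swC ∘ ω)))) =
        fun ω => g (jS (iS ω)) := funext fun ω => by rw [jS_swC]
    change Ex (fun i a => w i (swC a)) (fun ω => g (jS (iS (swC ∘ ω)))) = _ at h
    rw [h'] at h
    exact h
  have e2 : Ex (fun i a => w i (swC a)) (fun ω : Fin n → Lb (Option Λ) => g (jS (iS ω)) *
      ind (Exc (fun X => miss (P (jS (iS ω))) (A (jS (iS ω))) (nS (iS ω) ⊔ X) ≤ a + δ)
        (vS ω) (cS ω) j)) = Ex w (fun ω => g (jS (iS ω)) *
      ind (Exc (fun X => miss (P (jS (iS ω))) (A (jS (iS ω))) (cS ω ⊔ X) ≤ a + δ)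
        (vS ω) (nS (iS ω)) j)) := by
    rw [← Ex_equiv swCE w]
    refine congrArg _ (funext fun ω => ?_)
    change _ = g (jS (iS (swC ∘ ω))) *
      ind (Exc (fun X => miss (P (jS (iS (swC ∘ ω)))) (A (jS (iS (swC ∘ ω))))
        (cS (swC ∘ ω) ⊔ X) ≤ a + δ) (vS (swC ∘ ω)) (nS (iS (swC ∘ ω))) j)
    rw [vS_swC, cS_swC, nS_swC, jS_swC]
  rw [e1, e2] at hE
  -- the essential event
  have hF := essential h1 hT hc hf (fun U => g (jS U)) (fun U => P (jS U)) (fun U => hP _)
    (fun U => A (jS U)) (fun U => hA _) (a := a) hM hs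
  have hsplit : Ex w (fun ω => g (jS (iS ω)) *
      ind (Gap (P (jS (iS ω))) (A (jS (iS ω))) (vS ω) (cS ω) (nS (iS ω)) a (a + δ) N)) ≤
      Ex w (fun ω => g (jS (iS ω)) *
      ind (Exc (fun X => miss (P (jS (iS ω))) (A (jS (iS ω))) (cS ω ⊔ X) ≤ a + δ)
        (vS ω) (nS (iS ω)) j)) +
      Ex w (fun ω => g (jS (iS ω)) * ind (Ess (P (jS (iS ω))) (A (jS (iS ω))) (vS ω) (cS ω)
        a (a + δ) M)) := by
    rw [← Ex_add]
    refine Ex_mono fun ω => ?_
    rw [← mul_add]
    refine mul_le_mul_right (iSup_le fun h => ?_) _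
    rcases gap_cases (hA _) hN h with h | h
    · rw [ind_pos h]
      exact le_self_add
    · rw [ind_pos h]
      exact le_add_self
  refine hsplit.trans ?_
  rw [add_mul]
  refine add_le_add ?_ ?_
  · rw [mul_comm, ← div_eq_mul_inv]
    refine (ENNReal.le_div_iff_mul_le (Or.inl (pow_ne_zero _ h0))
      (Or.inl (ENNReal.pow_ne_top hT))).2 ?_
    rw [mul_comm]
    exact hE
  · rw [mul_comm, ← div_eq_mul_inv]
    refine (ENNReal.le_div_iff_mul_le (Or.inl ?_) (Or.inl ?_)).2 ?_
    · exact mul_ne_zero (ENNReal.div_ne_zero.2 ⟨hδ, ENNReal.ofNat_ne_top⟩) (pow_ne_zero _ h0)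
    · exact ENNReal.mul_ne_top (ENNReal.div_ne_top hδ' two_ne_zero) (ENNReal.pow_ne_top hT)
    · rw [mul_comm]
      exact hF

end Main

end Vale.Agent.P331.H726
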