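import Mathlib

/-!
# Independent exclusive labels and monotone families

Each coordinate gets independently a label `V`, `C`, `none` or an inert label. For the laws of the
sets `V` and `C` we prove the comparison inequality for suprema over the subsets of `V` and two
exponential inequalities for increasing and decreasing families.
-/

namespace Vale.Agent.P331.H726

open scoped ENNReal
open Finset

universe u

section Ex

variable {E : Type*} [Fintype E] {L : Type*} [Fintype L]

/-- The expectation of `F` if the coordinates have independent labels with weights `w`. -/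
noncomputable def Ex [DecidableEq E] (w : E → L → ℝ≥0∞) (F : (E → L) → ℝ≥0∞) : ℝ≥0∞ :=
  ∑ ω : E → L, (∏ e, w e (ω e)) * F ω

theorem Ex_mono [DecidableEq E] {w : E → L → ℝ≥0∞} {F G : (E → L) → ℝ≥0∞} (h : ∀ ω, F ω ≤ G ω) :
    Ex w F ≤ Ex w G :=
  Finset.sum_le_sum fun ω _ => mul_le_mul_right (h ω) _

theorem Ex_add [DecidableEq E] (w : E → L → ℝ≥0∞) (F G : (E → L) → ℝ≥0∞) :
    Ex w (fun ω => F ω + G ω) = Ex w F + Ex w G := by
  simp only [Ex, mul_add, Finset.sum_add_distrib]

theorem Ex_mul [DecidableEq E] (w : E → L → ℝ≥0∞) (c : ℝ≥0∞) (F : (E → L) → ℝ≥0∞) :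
    Ex w (fun ω => c * F ω) = c * Ex w F := by
  simp only [Ex, Finset.mul_sum]
  exact Finset.sum_congr rfl fun ω _ => by ring

theorem Ex_sum [DecidableEq E] {ι : Type*} (s : Finset ι) (w : E → L → ℝ≥0∞)
    (F : ι → (E → L) → ℝ≥0∞) :
    Ex w (fun ω => ∑ i ∈ s, F i ω) = ∑ i ∈ s, Ex w (F i) := by
  simp only [Ex, Finset.mul_sum]
  exact Finset.sum_comm

end Ex

section Cons

variable {L : Type*} [Fintype L] {n : ℕ}

theorem Ex_zero (w : Fin 0 → L → ℝ≥0∞) (F : (Fin 0 → L) → ℝ≥0∞) :
    Ex w F = F finZeroElim := by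
  rw [Ex, Fintype.sum_unique]
  simp only [Finset.univ_eq_empty, Finset.prod_empty, one_mul]
  congr 1

theorem Ex_cons (w : Fin (n + 1) → L → ℝ≥0∞) (F : (Fin (n + 1) → L) → ℝ≥0∞) :
    Ex w F = ∑ a, w 0 a * Ex (fun i => w i.succ) (fun ω => F (Fin.cons a ω)) := by
  rw [Ex, ← (Fin.consEquiv fun _ => L).sum_comp, Fintype.sum_prod_type]
  refine Finset.sum_congr rfl fun a _ => ?_
  rw [Ex, Finset.mul_sum]
  refine Finset.sum_congr rfl fun ω _ => ?_
  have h : (Fin.consEquiv fun _ => L) (a, ω) = (Fin.cons a ω : Fin (n + 1) → L) := rfl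
  rw [h, Fin.prod_univ_succ]
  simp only [Fin.cons_zero, Fin.cons_succ]
  ring

end Cons

/-- Subsets of the set of coordinates. -/
abbrev St (n : ℕ) := Fin n → Bool

/-- The number of elements. -/
def crd {n : ℕ} (D : St n) : ℕ := ∑ i, (D i).toNat

theorem crd_cons {n : ℕ} (b : Bool) (D : St n) : crd (Fin.cons b D : St (n + 1)) = b.toNat + crd D := by
  rw [crd, Fin.sum_univ_succ]
  rfl

/-- Labels: `V`, `C`, `none` and the inert labels. -/
abbrev Lb (Λ : Type u) := Fin 3 ⊕ Λ

section Labels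

variable {Λ : Type u}

/-- Is the label `V`? -/
def isV : Lb Λ → Bool := Sum.elim (fun j => decide (j = 0)) fun _ => false

/-- Is the label `C`? -/
def isC : Lb Λ → Bool := Sum.elim (fun j => decide (j = 1)) fun _ => false

/-- The inert label. -/
def inert : Lb Λ → Option Λ := Sum.elim (fun _ => none) some

/-- The set of the coordinates with label `V`. -/
def vS {n : ℕ} (ω : Fin n → Lb Λ) : St n := isV ∘ ω

/-- The set of the coordinates with label `C`. -/
def cS {n : ℕ} (ω : Fin n → Lb Λ) : St n := isC ∘ ω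

/-- The inert labels. -/
def iS {n : ℕ} (ω : Fin n → Lb Λ) : Fin n → Option Λ := inert ∘ ω

theorem vS_cons {n : ℕ} (a : Lb Λ) (ω : Fin n → Lb Λ) :
    vS (Fin.cons a ω : Fin (n + 1) → Lb Λ) = Fin.cons (isV a) (vS ω) := Fin.comp_cons _ _ _

theorem cS_cons {n : ℕ} (a : Lb Λ) (ω : Fin n → Lb Λ) :
    cS (Fin.cons a ω : Fin (n + 1) → Lb Λ) = Fin.cons (isC a) (cS ω) := Fin.comp_cons _ _ _

theorem iS_cons {n : ℕ} (a : Lb Λ) (ω : Fin n → Lb Λ) :
    iS (Fin.cons a ω : Fin (n + 1) → Lb Λ) = Fin.cons (inert a) (iS ω) := Fin.comp_cons _ _ _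

end Labels

section SetLemmas

variable {n : ℕ}

theorem cons_sup (a b : Bool) (A B : St n) :
    (Fin.cons a A ⊔ Fin.cons b B : St (n + 1)) = Fin.cons (a ⊔ b) (A ⊔ B) := by
  funext i
  refine Fin.cases ?_ (fun i => ?_) i <;> rfl

theorem cons_sdiff (a b : Bool) (A B : St n) :
    (Fin.cons a A \ Fin.cons b B : St (n + 1)) = Fin.cons (a \ b) (A \ B) := by
  funext i
  refine Fin.cases ?_ (fun i => ?_) i <;> rfl

theorem cons_le_cons {a b : Bool} {A B : St n} (h : a ≤ b) (h' : A ≤ B) :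
    (Fin.cons a A : St (n + 1)) ≤ Fin.cons b B := by
  intro i
  refine Fin.cases ?_ (fun i => ?_) i
  · exact h
  · exact h' i

theorem exists_cons {b : Bool} {A : St n} {K : St (n + 1)} (h : K ≤ Fin.cons b A) :
    ∃ (k : Bool) (K' : St n), K = Fin.cons k K' ∧ k ≤ b ∧ K' ≤ A :=
  ⟨K 0, Fin.tail K, (Fin.cons_self_tail K).symm, h 0, fun i => h i.succ⟩

end SetLemmas

section Main

variable {Λ : Type u} [Fintype Λ]

/-- The sum over the labels. -/
theorem sum_labels (f : Lb Λ → ℝ≥0∞) :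
    ∑ a, f a = f (Sum.inl 0) + f (Sum.inl 1) + f (Sum.inl 2) + ∑ a : Λ, f (Sum.inr a) := by
  rw [Fintype.sum_sum_type, Fin.sum_univ_three]

/-- Comparison of the label laws: from `w` to `w'` the mass of `V` is moved from `C` to `none`. -/
structure Shift {n : ℕ} (w w' : Fin n → Lb Λ → ℝ≥0∞) : Prop where
  v : ∀ i, w' i (Sum.inl 0) = w i (Sum.inl 0)
  c : ∀ i, w i (Sum.inl 1) = w' i (Sum.inl 1) + w i (Sum.inl 0)
  o : ∀ i, w' i (Sum.inl 2) = w i (Sum.inl 2) + w i (Sum.inl 0)
  r : ∀ i a, w' i (Sum.inr a) = w i (Sum.inr a)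

theorem key_A {p x'' r A00 A01 A11 : ℝ≥0∞} (h1 : A01 ≤ A00) (h2 : A01 ≤ A11) :
    p * max A00 A11 + (x'' + p) * A01 + r * A00 ≤ p * A11 + x'' * A01 + (r + p) * A00 := by
  have h : p * max A00 A11 + p * A01 ≤ p * A11 + p * A00 := by
    rcases le_total A00 A11 with h | h
    · rw [max_eq_right h]
      gcongr
    · rw [max_eq_left h, add_comm (p * A11)]
      gcongr
  calc p * max A00 A11 + (x'' + p) * A01 + r * A00
      = (p * max A00 A11 + p * A01) + (x'' * A01 + r * A00) := by ring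
    _ ≤ (p * A11 + p * A00) + (x'' * A01 + r * A00) := by gcongr
    _ = _ := by ring

/-- **(A)** The supremum over the subsets of `V` is free. -/
theorem comparison {I : Type*} : ∀ {n : ℕ} {w w' : Fin n → Lb Λ → ℝ≥0∞}, Shift w w' →
    ∀ (φ : I → (Fin n → Option Λ) → St n → St n → ℝ≥0∞)
      (_ : ∀ i U A A' B, A ≤ A' → φ i U A B ≤ φ i U A' B)
      (_ : ∀ i U A B B', B ≤ B' → φ i U A B' ≤ φ i U A B),
    Ex w (fun ω => ⨆ (i : I) (K : St n) (_ : K ≤ vS ω), φ i (iS ω) K (K ⊔ cS ω)) ≤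
      Ex w' (fun ω => ⨆ i : I, φ i (iS ω) (vS ω) (vS ω ⊔ cS ω)) := by
  intro n
  induction n with
  | zero =>
    intro w w' _ φ _ _
    rw [Ex_zero, Ex_zero]
    refine iSup_mono fun i => iSup_le fun K => iSup_le fun _ => ?_
    rw [Subsingleton.elim K (vS finZeroElim)]
  | succ n ih =>
    intro w w' hw φ hA hB
    have hw' : Shift (fun i => w i.succ) (fun i => w' i.succ) :=
      ⟨fun i => hw.v _, fun i => hw.c _, fun i => hw.o _, fun i a => hw.r _ a⟩
    -- the three suprema
    let Q : Option Λ → Bool → Bool → (Fin n → Lb Λ) → ℝ≥0∞ := fun u a b ω =>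
      ⨆ (i : I) (K : St n) (_ : K ≤ vS ω), φ i (Fin.cons u (iS ω)) (Fin.cons a K)
        (Fin.cons b (K ⊔ cS ω))
    let P : Option Λ → Bool → Bool → (Fin n → Lb Λ) → ℝ≥0∞ := fun u a b ω =>
      ⨆ i : I, φ i (Fin.cons u (iS ω)) (Fin.cons a (vS ω)) (Fin.cons b (vS ω ⊔ cS ω))
    have hPQ : ∀ u a b, Ex (fun i => w i.succ) (Q u a b) ≤ Ex (fun i => w' i.succ) (P u a b) := by
      intro u a b
      exact ih hw' (fun i U A B => φ i (Fin.cons u U) (Fin.cons a A) (Fin.cons b B))
        (fun i U A A' B h => hA _ _ _ _ _ (cons_le_cons le_rfl h))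
        (fun i U A B B' h => hB _ _ _ _ _ (cons_le_cons le_rfl h))
    have e0 : ∀ ω : Fin n → Lb Λ, (⨆ (i : I) (K : St (n + 1))
        (_ : K ≤ vS (Fin.cons (Sum.inl 0) ω : Fin (n + 1) → Lb Λ)),
        φ i (iS (Fin.cons (Sum.inl 0) ω : Fin (n + 1) → Lb Λ)) K
          (K ⊔ cS (Fin.cons (Sum.inl 0) ω : Fin (n + 1) → Lb Λ))) ≤
        max (Q none false false ω) (Q none true true ω) := by
      intro ω
      refine iSup_le fun i => iSup_le fun K => iSup_le fun hK => ?_
      rw [vS_cons] at hK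
      obtain ⟨b, K', rfl, -, hK'⟩ := exists_cons hK
      rw [cS_cons, iS_cons, cons_sup]
      cases b
      · refine le_trans ?_ (le_max_left _ _)
        exact le_iSup_of_le i (le_iSup_of_le K' (le_iSup_of_le hK' le_rfl))
      · refine le_trans ?_ (le_max_right _ _)
        exact le_iSup_of_le i (le_iSup_of_le K' (le_iSup_of_le hK' le_rfl))
    have e1 : ∀ (a : Lb Λ) (_ : isV a = false) (ω : Fin n → Lb Λ), (⨆ (i : I) (K : St (n + 1))
        (_ : K ≤ vS (Fin.cons a ω : Fin (n + 1) → Lb Λ)),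
        φ i (iS (Fin.cons a ω : Fin (n + 1) → Lb Λ)) K
          (K ⊔ cS (Fin.cons a ω : Fin (n + 1) → Lb Λ))) ≤ Q (inert a) false (isC a) ω := by
      intro a ha ω
      refine iSup_le fun i => iSup_le fun K => iSup_le fun hK => ?_
      rw [vS_cons, ha] at hK
      obtain ⟨b, K', rfl, hb, hK'⟩ := exists_cons hK
      obtain rfl : b = false := by
        cases b
        · rfl
        · exact absurd hb (by decide)
      rw [cS_cons, iS_cons, cons_sup, show (false ⊔ isC a : Bool) = isC a from bot_sup_eq _]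
      exact le_iSup_of_le i (le_iSup_of_le K' (le_iSup_of_le hK' le_rfl))
    have e2 : ∀ (a : Lb Λ) (ω : Fin n → Lb Λ),
        P (inert a) (isV a) (isV a ⊔ isC a) ω = ⨆ i : I,
          φ i (iS (Fin.cons a ω : Fin (n + 1) → Lb Λ)) (vS (Fin.cons a ω : Fin (n + 1) → Lb Λ))
          (vS (Fin.cons a ω : Fin (n + 1) → Lb Λ) ⊔ cS (Fin.cons a ω : Fin (n + 1) → Lb Λ)) := by
      intro a ω
      simp only [vS_cons, cS_cons, iS_cons, cons_sup]
      rfl
    have hQ1 : ∀ ω, Q none false true ω ≤ Q none false false ω := fun ω =>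
      iSup_mono fun i => iSup_mono fun K => iSup_mono fun _ =>
        hB _ _ _ _ _ (cons_le_cons (by decide) le_rfl)
    have hQ2 : ∀ ω, Q none false true ω ≤ Q none true true ω := fun ω =>
      iSup_mono fun i => iSup_mono fun K => iSup_mono fun _ =>
        hA _ _ _ _ _ (cons_le_cons (by decide) le_rfl)
    rw [Ex_cons, Ex_cons, sum_labels, sum_labels]
    set E1 := Ex (fun i : Fin n => w i.succ) with hE1
    set E2 := Ex (fun i : Fin n => w' i.succ) with hE2
    have s1 : w 0 (Sum.inl 0) * E1 (fun ω => max (Q none false false ω) (Q none true true ω)) +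
        w 0 (Sum.inl 1) * E1 (Q none false true) + w 0 (Sum.inl 2) * E1 (Q none false false) ≤
        w' 0 (Sum.inl 0) * E1 (Q none true true) + w' 0 (Sum.inl 1) * E1 (Q none false true) +
          w' 0 (Sum.inl 2) * E1 (Q none false false) := by
      rw [hE1, ← Ex_mul, ← Ex_mul, ← Ex_mul, ← Ex_mul, ← Ex_mul, ← Ex_mul, ← Ex_add, ← Ex_add,
        ← Ex_add, ← Ex_add]
      refine Ex_mono fun ω => ?_
      rw [hw.v, hw.c, hw.o]
      exact key_A (hQ1 ω) (hQ2 ω)
    calc _ ≤ w 0 (Sum.inl 0) * E1 (fun ω => max (Q none false false ω) (Q none true true ω)) +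
        w 0 (Sum.inl 1) * E1 (Q none false true) + w 0 (Sum.inl 2) * E1 (Q none false false) +
        ∑ a : Λ, w 0 (Sum.inr a) * E1 (Q (some a) false false) := by
          gcongr with a _
          · exact Ex_mono fun ω => e0 ω
          · exact Ex_mono fun ω => e1 (Sum.inl 1) rfl ω
          · exact Ex_mono fun ω => e1 (Sum.inl 2) rfl ω
          · exact Ex_mono fun ω => e1 (Sum.inr a) rfl ω
      _ ≤ w' 0 (Sum.inl 0) * E1 (Q none true true) + w' 0 (Sum.inl 1) * E1 (Q none false true) +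
          w' 0 (Sum.inl 2) * E1 (Q none false false) +
          ∑ a : Λ, w' 0 (Sum.inr a) * E1 (Q (some a) false false) := by
          refine add_le_add s1 (le_of_eq ?_)
          exact Finset.sum_congr rfl fun a _ => by rw [hw.r]
      _ ≤ w' 0 (Sum.inl 0) * E2 (P none true true) + w' 0 (Sum.inl 1) * E2 (P none false true) +
          w' 0 (Sum.inl 2) * E2 (P none false false) +
          ∑ a : Λ, w' 0 (Sum.inr a) * E2 (P (some a) false false) := by
          gcongr with a _
          · exact hPQ _ _ _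
          · exact hPQ _ _ _
          · exact hPQ _ _ _
          · exact hPQ _ _ _
      _ = _ := by
          have h2 := fun a => congrArg E2 (funext (e2 a))
          have h20 := h2 (Sum.inl 0)
          have h21 := h2 (Sum.inl 1)
          have h22 := h2 (Sum.inl 2)
          rw [← h20, ← h21, ← h22]
          refine congrArg₂ _ rfl (Finset.sum_congr rfl fun a _ => ?_)
          rw [← h2 (Sum.inr a)]
          rfl

end Main

end Vale.Agent.P331.H726
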